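import Vale.Agent.P091.CH.H847.Fou

/-!
# Carleson-Hunt on the finite grid: decay and regularity of kernels (KER1, KER2)
-/

open Finset

namespace Vale.Agent.P091.CH.H847

open Vale.Agent.P091.CH

variable {K : ℕ}

theorem circle_bounds (θ : UnitAddCircle) :
    4 * ‖θ‖ ≤ ‖((AddCircle.toCircle θ : Circle) : ℂ) - 1‖ ∧
    ‖((AddCircle.toCircle θ : Circle) : ℂ) - 1‖ ≤ 2 * Real.pi * ‖θ‖ := by
  obtain ⟨t, ht⟩ : ∃ t : ℝ, (t : UnitAddCircle) = θ := QuotientAddGroup.mk_surjective θ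
  have h1 : ((t - round t : ℝ) : UnitAddCircle) = θ := by
    rw [AddCircle.coe_sub, ht]
    have : ((round t : ℝ) : UnitAddCircle) = 0 := by
      have h := AddCircle.coe_period (1 : ℝ)
      have h2 : ((round t : ℝ) : UnitAddCircle) = round t • ((1 : ℝ) : UnitAddCircle) := by
        rw [← AddCircle.coe_zsmul]
        simp
      rw [h2, h, smul_zero]
    rw [this, sub_zero]
  have h2 : ‖θ‖ = |t - round t| := by
    rw [← ht, UnitAddCircle.norm_eq]
  have h3 : |t - round t| ≤ 1 / 2 := abs_sub_round t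
  generalize hu : t - round t = u at h1 h2 h3
  rw [← h1, AddCircle.toCircle_apply_mk, Circle.coe_exp, h1, h2]
  have h4 : Complex.exp (((2 * Real.pi / 1 * u : ℝ) : ℂ) * Complex.I)
      = Complex.exp (Complex.I * ((2 * Real.pi * u : ℝ) : ℂ)) := by
    congr 1
    push_cast
    ring
  rw [h4, Complex.norm_exp_I_mul_ofReal_sub_one]
  have h5 : 2 * Real.pi * u / 2 = Real.pi * u := by ring
  rw [h5, Real.norm_eq_abs, abs_mul, abs_two]
  have hpi := Real.pi_pos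
  have h6 : |Real.sin (Real.pi * u)| = Real.sin (Real.pi * |u|) := by
    have h7 : |u| ≤ 1 := by linarith
    have h8 : 0 ≤ Real.sin (Real.pi * |u|) :=
      Real.sin_nonneg_of_nonneg_of_le_pi (by positivity) (by nlinarith [abs_nonneg u])
    rcases abs_cases u with ⟨h, _⟩ | ⟨h, _⟩
    · rw [h] at h8 ⊢
      rw [abs_of_nonneg h8]
    · rw [h] at h8 ⊢
      rw [mul_neg, Real.sin_neg] at h8 ⊢
      rw [abs_of_nonpos (by linarith)]
  rw [h6]
  constructor
  · have h9 := Real.mul_le_sin (x := Real.pi * |u|) (by positivity) (by nlinarith)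
    have h10 : 2 / Real.pi * (Real.pi * |u|) = 2 * |u| := by
      field_simp
    linarith
  · have h9 := Real.sin_le (x := Real.pi * |u|) (by positivity)
    linarith

theorem nrm_nonneg (x : X K) : 0 ≤ nrm x := norm_nonneg _

theorem nrm_zero : nrm (0 : X K) = 0 := by
  unfold nrm
  rw [map_zero, norm_zero]

theorem nrm_neg (x : X K) : nrm (-x) = nrm x := by
  unfold nrm
  rw [map_neg, norm_neg]

theorem nrm_sub_comm (x y : X K) : nrm (x - y) = nrm (y - x) := by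
  rw [← nrm_neg, neg_sub]

theorem nrm_add_le (x y : X K) : nrm (x + y) ≤ nrm x + nrm y := by
  unfold nrm
  rw [map_add]
  exact norm_add_le _ _

theorem nrm_le_half (x : X K) : nrm x ≤ 1 / 2 := by
  unfold nrm
  have := AddCircle.norm_le_half_period (p := (1:ℝ)) (x := ZMod.toAddCircle x) one_ne_zero
  simpa using this

theorem ch_eq_circle (ξ : ℤ) (x : X K) :
    ch ξ x = ((AddCircle.toCircle (ξ • ZMod.toAddCircle x) : Circle) : ℂ) := by
  unfold ch
  rw [ZMod.stdAddChar_apply, ← map_zsmul, zsmul_eq_mul]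
  rfl

theorem ch_one_lower (x : X K) : 4 * nrm x ≤ ‖ch 1 x - 1‖ := by
  rw [ch_eq_circle, one_zsmul]
  exact (circle_bounds _).1

theorem ch_sub_one_le (ξ : ℤ) (x : X K) : ‖ch ξ x - 1‖ ≤ 2 * Real.pi * (|(ξ : ℝ)| * nrm x) := by
  rw [ch_eq_circle]
  refine (circle_bounds _).2.trans ?_
  have h := norm_zsmul_le ξ (ZMod.toAddCircle x)
  have h2 : ‖ξ‖ = |(ξ : ℝ)| := rfl
  have hpi := Real.pi_pos
  unfold nrm
  rw [h2] at h
  gcongr

theorem ch_neg_one_norm (x : X K) : ‖ch (-1) x - 1‖ = ‖ch 1 x - 1‖ := by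
  have h : ch (-1) x - 1 = -(ch (-1) x * (ch 1 x - 1)) := by
    have h2 := ch_mul_neg 1 x
    linear_combination h2
  rw [h, norm_neg, norm_mul, norm_ch, one_mul]

/-! ## summation by parts -/

/-- forward difference -/
abbrev D (f : ℤ → ℂ) : ℤ → ℂ := fwdDiff (1:ℤ) f

theorem D_apply (f : ℤ → ℂ) (ξ : ℤ) : D f ξ = f (ξ + 1) - f ξ := rfl

/-- the full trigonometric sum of a finitely supported function -/
noncomputable def S (g : ℤ → ℂ) (x : X K) : ℂ := ∑ᶠ ξ : ℤ, g ξ * ch ξ x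

theorem supp_fin {g : ℤ → ℂ} {a b : ℤ} (hg : ∀ ξ, ξ < a ∨ b ≤ ξ → g ξ = 0) (u : ℤ → ℂ) :
    (Function.support fun ξ => g ξ * u ξ).Finite := by
  refine (Set.finite_Ico a b).subset ?_
  intro ξ hξ
  rw [Function.mem_support] at hξ
  by_contra h
  rw [Set.mem_Ico, not_and_or, not_le, not_lt] at h
  exact hξ (by rw [hg ξ h, zero_mul])

theorem S_D {g : ℤ → ℂ} {a b : ℤ} (hg : ∀ ξ, ξ < a ∨ b ≤ ξ → g ξ = 0) (x : X K) :
    S (D g) x = (ch (-1) x - 1) * S g x := by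
  unfold S
  have h1 : ∀ ξ : ℤ, D g ξ * ch ξ x = ch (-1) x * (g (ξ + 1) * ch (ξ + 1) x) - g ξ * ch ξ x := by
    intro ξ
    rw [D_apply, ch_add ξ 1 x]
    have h2 := ch_mul_neg 1 x
    linear_combination (g (ξ + 1) * ch ξ x) * -h2
  simp_rw [h1]
  have hf1 : (Function.support fun ξ => g ξ * ch ξ x).Finite := supp_fin hg _
  have hf2 : (Function.support fun ξ => ch (-1) x * (g (ξ + 1) * ch (ξ + 1) x)).Finite := by
    have h3 : ∀ ξ, ξ < a - 1 ∨ b - 1 ≤ ξ → g (ξ + 1) = 0 := by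
      intro ξ hξ
      apply hg
      rcases hξ with h | h
      · left; linarith
      · right; linarith
    have h4 := supp_fin (g := fun ξ => g (ξ + 1)) h3 (fun ξ => ch (-1) x * ch (ξ + 1) x)
    refine h4.subset ?_
    intro ξ hξ
    rw [Function.mem_support] at hξ ⊢
    intro h5
    apply hξ
    rw [← h5]
    ring
  rw [finsum_sub_distrib hf2 hf1]
  have h6 : ∑ᶠ ξ : ℤ, ch (-1) x * (g (ξ + 1) * ch (ξ + 1) x)
      = ∑ᶠ ξ : ℤ, ch (-1) x * (g ξ * ch ξ x) :=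
    finsum_comp_equiv (Equiv.addRight (1:ℤ)) (f := fun ξ => ch (-1) x * (g ξ * ch ξ x))
  have h7 : ∑ᶠ ξ : ℤ, ch (-1) x * (g ξ * ch ξ x) = ch (-1) x * ∑ᶠ ξ : ℤ, g ξ * ch ξ x :=
    (mul_finsum (fun ξ => g ξ * ch ξ x) (ch (-1) x)).symm
  rw [h6, h7]
  ring

theorem D_iter_supp {g : ℤ → ℂ} {a b : ℤ} (hg : ∀ ξ, ξ < a ∨ b ≤ ξ → g ξ = 0) (i : ℕ) :
    ∀ ξ, ξ < a - i ∨ b ≤ ξ → D^[i] g ξ = 0 := by
  induction i with
  | zero => simpa using hg
  | succ i ih =>
    intro ξ hξ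
    rw [Function.iterate_succ_apply', D_apply, ih, ih, sub_zero]
    · rcases hξ with h | h
      · left; push_cast at h; linarith
      · right; linarith
    · rcases hξ with h | h
      · left; push_cast at h; linarith
      · right; linarith

theorem S_D_iter {g : ℤ → ℂ} {a b : ℤ} (hg : ∀ ξ, ξ < a ∨ b ≤ ξ → g ξ = 0) (x : X K) (i : ℕ) :
    S (D^[i] g) x = (ch (-1) x - 1) ^ i * S g x := by
  induction i with
  | zero => simp
  | succ i ih =>
    rw [Function.iterate_succ_apply', S_D (D_iter_supp hg i), ih]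
    ring

theorem S_eq_sum {g : ℤ → ℂ} {a b : ℤ} (hg : ∀ ξ, ξ < a ∨ b ≤ ξ → g ξ = 0) (x : X K) :
    S g x = ∑ ξ ∈ Ico a b, g ξ * ch ξ x := by
  unfold S
  apply finsum_eq_sum_of_support_subset
  intro ξ hξ
  rw [Function.mem_support] at hξ
  rw [Finset.coe_Ico]
  by_contra h
  rw [Set.mem_Ico, not_and_or, not_le, not_lt] at h
  exact hξ (by rw [hg ξ h, zero_mul])

theorem norm_S_le {g : ℤ → ℂ} {a b : ℤ} (hab : a ≤ b) (hg : ∀ ξ, ξ < a ∨ b ≤ ξ → g ξ = 0)
    {M : ℝ} (hM : ∀ ξ, ‖g ξ‖ ≤ M) (x : X K) : ‖S g x‖ ≤ ((b - a : ℤ) : ℝ) * M := by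
  rw [S_eq_sum hg x]
  refine (norm_sum_le _ _).trans ?_
  refine (Finset.sum_le_card_nsmul _ _ M ?_).trans ?_
  · intro ξ _
    rw [norm_mul, norm_ch, mul_one]
    exact hM ξ
  · rw [Int.card_Ico, nsmul_eq_mul]
    have h : (((b - a).toNat : ℕ) : ℝ) = ((b - a : ℤ) : ℝ) := by
      have := Int.toNat_of_nonneg (sub_nonneg.2 hab)
      exact_mod_cast this
    rw [h]

theorem ker_eq_S {g : ℤ → ℂ} {a b : ℤ} (ha : 0 ≤ a) (hb : b ≤ 2 ^ K)
    (hg : ∀ ξ, ξ < a ∨ b ≤ ξ → g ξ = 0) (x : X K) : ker g x = S g x := by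
  rw [S_eq_sum hg x]
  unfold ker win
  symm
  apply Finset.sum_subset
  · intro ξ hξ
    rw [Finset.mem_Ico] at hξ ⊢
    exact ⟨ha.trans hξ.1, hξ.2.trans_le hb⟩
  · intro ξ _ hξ
    rw [Finset.mem_Ico, not_and_or, not_le, not_lt] at hξ
    rw [hg ξ hξ, zero_mul]

theorem pow_one_add_le (n : ℕ) {T : ℝ} (hT : 0 ≤ T) : (1 + T) ^ n ≤ 2 ^ n * (1 + T ^ n) := by
  rcases le_total T 1 with h | h
  · calc (1 + T) ^ n ≤ 2 ^ n := by
          gcongr
          linarith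
      _ ≤ 2 ^ n * (1 + T ^ n) := by
          have : 0 ≤ T ^ n := by positivity
          have h2 : (0:ℝ) < 2 ^ n := by positivity
          nlinarith
  · calc (1 + T) ^ n ≤ (2 * T) ^ n := by
          gcongr
          linarith
      _ = 2 ^ n * T ^ n := mul_pow _ _ _
      _ ≤ 2 ^ n * (1 + T ^ n) := by
          gcongr
          linarith

/-- general kernel bound -/
theorem S_decay (n : ℕ) {g : ℤ → ℂ} {a b : ℤ} (hab : a ≤ b)
    (hg : ∀ ξ, ξ < a ∨ b ≤ ξ → g ξ = 0) {M h R : ℝ} (hM : 0 ≤ M) (hh : 0 < h) (hh1 : h ≤ 1)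
    (hR : ((b - a : ℤ) : ℝ) ≤ R / h) (hD0 : ∀ ξ, ‖g ξ‖ ≤ M)
    (hD : ∀ ξ, ‖D^[n] g ξ‖ ≤ M * h ^ n) (x : X K) :
    ‖S g x‖ ≤ 2 ^ n * (2 * R + n) * M * (1 / h) * (1 + nrm x / h)⁻¹ ^ n := by
  have hx := nrm_nonneg x
  have hR0 : 0 ≤ R := by
    have h1 : (0:ℝ) ≤ ((b - a : ℤ) : ℝ) := by exact_mod_cast sub_nonneg.2 hab
    have h2 := h1.trans hR
    by_contra h3
    push Not at h3
    have := div_neg_of_neg_of_pos h3 hh
    linarith
  have h0 : ‖S g x‖ ≤ R / h * M := (norm_S_le hab hg hD0 x).trans (by gcongr)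
  have h1 : (4 * nrm x) ^ n * ‖S g x‖ ≤ (R + n) / h * (M * h ^ n) := by
    have h2 : (4 * nrm x) ^ n * ‖S g x‖ ≤ ‖S (D^[n] g) x‖ := by
      rw [S_D_iter hg, norm_mul, norm_pow, ch_neg_one_norm]
      gcongr
      exact ch_one_lower x
    have h3 := norm_S_le (K := K) (by linarith [(Nat.cast_nonneg n : (0:ℤ) ≤ n)])
      (D_iter_supp hg n) hD x
    refine h2.trans (h3.trans ?_)
    have h4 : ((b - (a - n) : ℤ) : ℝ) ≤ (R + n) / h := by
      have h5 : ((b - (a - n) : ℤ) : ℝ) = ((b - a : ℤ) : ℝ) + n := by push_cast; ring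
      rw [h5, add_div]
      have h6 : (n:ℝ) ≤ n / h := by
        rw [le_div_iff₀ hh]
        have : (0:ℝ) ≤ n := Nat.cast_nonneg n
        nlinarith
      linarith
    gcongr
  have hT : 0 ≤ nrm x / h := by positivity
  have h2 := pow_one_add_le n hT
  have h3 : (nrm x / h) ^ n * ‖S g x‖ ≤ (R + n) / h * M := by
    have h4 : (nrm x) ^ n * ‖S g x‖ ≤ (4 * nrm x) ^ n * ‖S g x‖ := by
      gcongr
      linarith
    have h5 := h4.trans h1
    rw [div_pow, div_mul_eq_mul_div, div_le_iff₀ (by positivity)]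
    linarith
  have h4 : (1 + nrm x / h) ^ n * ‖S g x‖ ≤ 2 ^ n * (2 * R + n) * M * (1 / h) := by
    calc (1 + nrm x / h) ^ n * ‖S g x‖ ≤ (2 ^ n * (1 + (nrm x / h) ^ n)) * ‖S g x‖ := by gcongr
      _ = 2 ^ n * (‖S g x‖ + (nrm x / h) ^ n * ‖S g x‖) := by ring
      _ ≤ 2 ^ n * (R / h * M + (R + n) / h * M) := by gcongr
      _ = 2 ^ n * (2 * R + n) * M * (1 / h) := by ring
  have h5 : 0 < (1 + nrm x / h) ^ n := by positivity
  rw [inv_pow, ← div_eq_mul_inv, le_div_iff₀ h5]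
  linarith

theorem sym_nonneg {B : ℝ} {m : ℕ → ℤ → ℤ → ℂ} (hm : IsSym B m) : 0 ≤ B := by
  have h := (hm 0 0).2 0 (by norm_num) 0
  simp only [Function.iterate_zero, id_eq, mul_zero, pow_zero, inv_one, mul_one] at h
  exact (norm_nonneg _).trans h

theorem sym_supp {B : ℝ} {m : ℕ → ℤ → ℤ → ℂ} (hm : IsSym B m) (k : ℕ) (l : ℤ) :
    ∀ ξ, ξ < (l - 10) * 2 ^ k ∨ (l - 2) * 2 ^ k ≤ ξ → m k l ξ = 0 := (hm k l).1

theorem sym_diff {B : ℝ} {m : ℕ → ℤ → ℤ → ℂ} (hm : IsSym B m) (k : ℕ) (l : ℤ) {i : ℕ}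
    (hi : i ≤ 20) (ξ : ℤ) : ‖D^[i] (m k l) ξ‖ ≤ B * (((2:ℝ) ^ k)⁻¹) ^ i := by
  have h := (hm k l).2 i hi ξ
  rw [inv_pow, ← pow_mul]
  exact h

theorem ker_decay {B : ℝ} {m : ℕ → ℤ → ℤ → ℂ} (hm : IsSym B m) (k : ℕ) (l : ℤ)
    (h0 : 0 ≤ (l - 10) * 2 ^ k) (h1 : (l - 2) * 2 ^ k ≤ 2 ^ K) {n : ℕ} (hn : n ≤ 20) (x : X K) :
    ‖ker (m k l) x‖ ≤ 2 ^ n * (16 + n) * B * 2 ^ k * (1 + 2 ^ k * nrm x)⁻¹ ^ n := by
  have hab : (l - 10) * 2 ^ k ≤ (l - 2) * 2 ^ k := by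
    have : (0:ℤ) < 2 ^ k := by positivity
    nlinarith
  rw [ker_eq_S h0 h1 (sym_supp hm k l)]
  have hB := sym_nonneg hm
  have h2 : (0:ℝ) < 2 ^ k := by positivity
  have h3 : (1:ℝ) ≤ 2 ^ k := one_le_pow₀ (by norm_num)
  have h := S_decay (K := K) n hab (sym_supp hm k l) (M := B) (h := ((2:ℝ) ^ k)⁻¹) (R := 8) hB
    (by positivity) (inv_le_one_of_one_le₀ h3)
    (by
      rw [div_inv_eq_mul]
      push_cast
      apply le_of_eq
      ring)
    (fun ξ => by simpa using sym_diff hm k l (i := 0) (by norm_num) ξ)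
    (fun ξ => sym_diff hm k l hn ξ) x
  have h4 : nrm x / ((2:ℝ) ^ k)⁻¹ = 2 ^ k * nrm x := by
    rw [div_inv_eq_mul, mul_comm]
  have h5 : (1:ℝ) / ((2:ℝ) ^ k)⁻¹ = 2 ^ k := by
    rw [one_div, inv_inv]
  rw [h4, h5] at h
  refine h.trans (le_of_eq ?_)
  ring

theorem ker1 : P_KER1 := by
  intro B
  refine ⟨2 ^ 20 * (16 + 20) * B, ?_⟩
  intro m hm K k l _ h0 h1 x
  have h := ker_decay (K := K) hm k l h0 h1 (n := 20) le_rfl x
  norm_num at h ⊢
  exact h

/-! ## products -/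

theorem D_iter_mul (i : ℕ) : ∀ (f g : ℤ → ℂ) (M N h : ℝ) (η : ℤ), 0 ≤ M → 0 ≤ N → 0 ≤ h →
    (∀ j ≤ i, ∀ s : ℕ, s ≤ i - j → ‖D^[j] f (η + s)‖ ≤ M * h ^ j) →
    (∀ j ≤ i, ∀ s : ℕ, s ≤ i - j → ‖D^[j] g (η + s)‖ ≤ N * h ^ j) →
    ‖D^[i] (fun ξ => f ξ * g ξ) η‖ ≤ 2 ^ i * (M * N * h ^ i) := by
  induction i with
  | zero =>
    intro f g M N h η hM hN _ hf hg
    have h1 := hf 0 le_rfl 0 le_rfl
    have h2 := hg 0 le_rfl 0 le_rfl
    simp only [Function.iterate_zero, id_eq, Nat.cast_zero, add_zero, pow_zero, mul_one] at h1 h2 ⊢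
    rw [norm_mul, one_mul]
    gcongr
  | succ i ih =>
    intro f g M N h η hM hN hh hf hg
    have h1 : D (fun ξ => f ξ * g ξ) = fun ξ => (D f ξ * g (ξ + 1)) + f ξ * D g ξ := by
      funext ξ
      simp only [D_apply]
      ring
    have h2 : D^[i] (fun ξ => (D f ξ * g (ξ + 1)) + f ξ * D g ξ)
        = D^[i] (fun ξ => D f ξ * g (ξ + 1)) + D^[i] (fun ξ => f ξ * D g ξ) :=
      fwdDiff_iter_add (1:ℤ) (fun ξ => D f ξ * g (ξ + 1)) (fun ξ => f ξ * D g ξ) i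
    rw [Function.iterate_succ_apply, h1, h2, Pi.add_apply]
    have h3 := ih (D f) (fun ξ => g (ξ + 1)) (M * h) N h η (by positivity) hN hh
      (by
        intro j hj s hs
        have h4 := hf (j + 1) (by omega) s (by omega)
        rw [Function.iterate_succ_apply] at h4
        refine h4.trans (le_of_eq ?_)
        ring)
      (by
        intro j hj s hs
        have h4 := hg j (by omega) (s + 1) (by omega)
        have h5 : D^[j] (fun ξ => g (ξ + 1)) (η + s) = D^[j] g (η + s + 1) :=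
          fwdDiff_iter_comp_add (1:ℤ) g 1 j (η + s)
        rw [h5]
        push_cast at h4
        rw [← add_assoc] at h4
        exact h4)
    have h6 := ih f (D g) M (N * h) h η hM (by positivity) hh
      (by
        intro j hj s hs
        exact hf j (by omega) s (by omega))
      (by
        intro j hj s hs
        have h4 := hg (j + 1) (by omega) s (by omega)
        rw [Function.iterate_succ_apply] at h4
        refine h4.trans (le_of_eq ?_)
        ring)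
    refine (norm_add_le _ _).trans ((add_le_add h3 h6).trans (le_of_eq ?_))
    ring

/-- differences of a pure exponential -/
theorem D_iter_exp (w : X K) (ξ0 : ℤ) (c : ℂ) (j : ℕ) :
    D^[j] (fun η => c * ch (η - ξ0) w) = fun η => c * (ch 1 w - 1) ^ j * ch (η - ξ0) w := by
  induction j with
  | zero => simp
  | succ j ih =>
    rw [Function.iterate_succ_apply', ih]
    funext η
    rw [D_apply]
    have h : η + 1 - ξ0 = (η - ξ0) + 1 := by ring
    rw [h, ch_add]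
    ring

theorem ker2 : P_KER2 := by
  intro B
  refine ⟨2 ^ 20 * (2 * 8 + 20) * (2 ^ 20 * (B * (2 * Real.pi * 51 * (8 * Real.pi) ^ 20))), ?_⟩
  intro m hm K k l ξ _ h0 h1 hξ x y hxy
  have hB := sym_nonneg hm
  have hpi := Real.pi_pos
  have hpi1 : (1:ℝ) ≤ 8 * Real.pi := by linarith [Real.pi_gt_three]
  have h2 : (0:ℝ) < 2 ^ k := by positivity
  have h3 : (1:ℝ) ≤ 2 ^ k := one_le_pow₀ (by norm_num)
  have h2z : (0:ℤ) < 2 ^ k := by positivity
  have h3z : (1:ℤ) ≤ 2 ^ k := one_le_pow₀ (by norm_num)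
  set w : X K := y - x with hw
  have hwn : nrm w = nrm (x - y) := nrm_sub_comm _ _
  set g : ℤ → ℂ := fun η => 1 - ch (η - ξ) w with hgdef
  have hab : (l - 10) * 2 ^ k ≤ (l - 2) * 2 ^ k := by nlinarith
  -- the difference is the sum of the product symbol
  have hS : ch (-ξ) x * ker (m k l) x - ch (-ξ) y * ker (m k l) y
      = ch (-ξ) x * S (fun η => m k l η * g η) x := by
    rw [ker_eq_S h0 h1 (sym_supp hm k l), ker_eq_S h0 h1 (sym_supp hm k l),
      S_eq_sum (sym_supp hm k l), S_eq_sum (sym_supp hm k l)]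
    have hsupp : ∀ η, η < (l - 10) * 2 ^ k ∨ (l - 2) * 2 ^ k ≤ η → (fun η => m k l η * g η) η = 0 := by
      intro η hη
      simp only [sym_supp hm k l η hη, zero_mul]
    rw [S_eq_sum hsupp, Finset.mul_sum, Finset.mul_sum, Finset.mul_sum, ← Finset.sum_sub_distrib]
    refine Finset.sum_congr rfl fun η _ => ?_
    have hy : y = x + w := by rw [hw]; ring
    have h5 : ch (-ξ) y * (m k l η * ch η y) = ch (-ξ) x * (m k l η * ch η x) * ch (η - ξ) w := by
      rw [hy, ch_add' (-ξ), ch_add' η, sub_eq_add_neg, ch_add η (-ξ) w]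
      ring
    rw [h5, hgdef]
    ring
  rw [hS, norm_mul, norm_ch, one_mul]
  have hsupp : ∀ η, η < (l - 10) * 2 ^ k ∨ (l - 2) * 2 ^ k ≤ η → (fun η => m k l η * g η) η = 0 := by
    intro η hη
    simp only [sym_supp hm k l η hη, zero_mul]
  -- differences of g
  set N0 : ℝ := 2 * Real.pi * 51 * (8 * Real.pi) ^ 20 * (2 ^ k * nrm w) with hN0
  have hN0' : 0 ≤ N0 := by
    have := nrm_nonneg w
    positivity
  have hgD : ∀ j ≤ 20, ∀ η : ℤ, |η - l * 2 ^ k| ≤ 31 * 2 ^ k →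
      ‖D^[j] g η‖ ≤ N0 * (((2:ℝ) ^ k)⁻¹) ^ j := by
    intro j hj η hη
    have hwn0 := nrm_nonneg w
    rcases Nat.eq_zero_or_pos j with rfl | hj0
    · simp only [Function.iterate_zero, id_eq, pow_zero, mul_one]
      rw [hgdef]
      have h6 : ‖(1:ℂ) - ch (η - ξ) w‖ = ‖ch (η - ξ) w - 1‖ := norm_sub_rev _ _
      simp only
      rw [h6]
      refine (ch_sub_one_le _ _).trans ?_
      have h7 : |((η - ξ : ℤ) : ℝ)| ≤ 51 * 2 ^ k := by
        have h8 : |η - ξ| ≤ 51 * 2 ^ k := by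
          have h9 : η - ξ = (η - l * 2 ^ k) - (ξ - l * 2 ^ k) := by ring
          rw [h9]
          refine (abs_sub _ _).trans ?_
          linarith
        have h10 : ((|η - ξ| : ℤ) : ℝ) ≤ ((51 * 2 ^ k : ℤ) : ℝ) := by exact_mod_cast h8
        push_cast at h10
        push_cast
        exact h10
      have h11 : (1:ℝ) ≤ (8 * Real.pi) ^ 20 := one_le_pow₀ hpi1
      calc 2 * Real.pi * (|((η - ξ : ℤ) : ℝ)| * nrm w)
          ≤ 2 * Real.pi * (51 * 2 ^ k * nrm w) := by gcongr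
        _ = 2 * Real.pi * 51 * 1 * (2 ^ k * nrm w) := by ring
        _ ≤ N0 := by rw [hN0]; gcongr
    · obtain ⟨i, rfl⟩ : ∃ i, j = i + 1 := ⟨j - 1, by omega⟩
      have h6 : D g = fun η => (-(ch 1 w - 1)) * ch (η - ξ) w := by
        funext η
        rw [D_apply, hgdef]
        have h : η + 1 - ξ = (η - ξ) + 1 := by ring
        simp only
        rw [h, ch_add]
        ring
      rw [Function.iterate_succ_apply, h6, D_iter_exp]
      simp only
      rw [norm_mul, norm_mul, norm_neg, norm_pow, norm_ch, mul_one, ← pow_succ']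
      have h7 : ‖ch 1 w - 1‖ ≤ 2 * Real.pi * nrm w := by
        have := ch_sub_one_le 1 w
        simpa using this
      have h8 : ‖ch 1 w - 1‖ ≤ 8 * Real.pi * ((2:ℝ) ^ k)⁻¹ := by
        refine h7.trans ?_
        rw [hwn]
        have : 2 * Real.pi * nrm (x - y) ≤ 2 * Real.pi * (4 * ((2:ℝ) ^ k)⁻¹) := by gcongr
        linarith
      calc ‖ch 1 w - 1‖ ^ (i + 1) = ‖ch 1 w - 1‖ ^ i * ‖ch 1 w - 1‖ := pow_succ _ _
        _ ≤ (8 * Real.pi * ((2:ℝ) ^ k)⁻¹) ^ i * (2 * Real.pi * nrm w) := by gcongr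
        _ = 2 * Real.pi * (8 * Real.pi) ^ i * (2 ^ k * nrm w) * (((2:ℝ) ^ k)⁻¹) ^ (i + 1) := by
            rw [mul_pow, pow_succ]
            field_simp
        _ ≤ N0 * (((2:ℝ) ^ k)⁻¹) ^ (i + 1) := by
            rw [hN0]
            have h9 : (8 * Real.pi) ^ i ≤ (8 * Real.pi) ^ 20 := pow_le_pow_right₀ hpi1 (by omega)
            have h10 : 2 * Real.pi * (8 * Real.pi) ^ i ≤ 2 * Real.pi * 51 * (8 * Real.pi) ^ 20 := by
              have h11 : (0:ℝ) ≤ (8 * Real.pi) ^ i := by positivity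
              nlinarith
            gcongr
  -- differences of the product
  have hprod : ∀ i ≤ 20, ∀ η : ℤ, ‖D^[i] (fun η => m k l η * g η) η‖
      ≤ 2 ^ 20 * (B * N0) * (((2:ℝ) ^ k)⁻¹) ^ i := by
    intro i hi η
    by_cases hη : |η - l * 2 ^ k| ≤ 11 * 2 ^ k + 20 ∧ η < (l - 2) * 2 ^ k ∧ (l - 10) * 2 ^ k - i ≤ η
    · have h5 := D_iter_mul i (m k l) g B N0 (((2:ℝ) ^ k)⁻¹) η hB hN0' (by positivity)
        (fun j hj s _ => sym_diff hm k l (by omega) _)
        (by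
          intro j hj s hs
          apply hgD j (by omega)
          obtain ⟨h6, h7, h8⟩ := hη
          have hs2 : (s:ℤ) ≤ 20 := by omega
          have hi2 : (i:ℤ) ≤ 20 := by exact_mod_cast hi
          have hs0 : (0:ℤ) ≤ s := Int.natCast_nonneg s
          rw [abs_le]
          constructor <;> nlinarith)
      refine h5.trans ?_
      have h9 : (2:ℝ) ^ i ≤ 2 ^ 20 := pow_le_pow_right₀ (by norm_num) hi
      calc (2:ℝ) ^ i * (B * N0 * (((2:ℝ) ^ k)⁻¹) ^ i)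
          ≤ 2 ^ 20 * (B * N0 * (((2:ℝ) ^ k)⁻¹) ^ i) := by gcongr
        _ = 2 ^ 20 * (B * N0) * (((2:ℝ) ^ k)⁻¹) ^ i := by ring
    · have h5 : η < (l - 10) * 2 ^ k - i ∨ (l - 2) * 2 ^ k ≤ η := by
        by_contra h6
        push Not at h6
        apply hη
        have hi2 : (i:ℤ) ≤ 20 := by exact_mod_cast hi
        refine ⟨?_, h6.2, h6.1⟩
        rw [abs_le]
        constructor <;> nlinarith [h6.1, h6.2]
      have h6 := D_iter_supp hsupp i η h5
      rw [h6, norm_zero]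
      positivity
  have hfin := S_decay (K := K) 20 hab hsupp (M := 2 ^ 20 * (B * N0)) (h := ((2:ℝ) ^ k)⁻¹) (R := 8)
    (by positivity) (by positivity) (inv_le_one_of_one_le₀ h3)
    (by
      rw [div_inv_eq_mul]
      push_cast
      apply le_of_eq
      ring)
    (fun η => by simpa using hprod 0 (by norm_num) η)
    (fun η => hprod 20 le_rfl η) x
  have h4 : nrm x / ((2:ℝ) ^ k)⁻¹ = 2 ^ k * nrm x := by
    rw [div_inv_eq_mul, mul_comm]
  have h5 : (1:ℝ) / ((2:ℝ) ^ k)⁻¹ = 2 ^ k := by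
    rw [one_div, inv_inv]
  rw [h4, h5] at hfin
  refine hfin.trans (le_of_eq ?_)
  rw [hN0, hwn]
  have h6 : (4:ℝ) ^ k = 2 ^ k * 2 ^ k := by
    rw [← mul_pow]; norm_num
  rw [h6]
  push_cast
  ring

end Vale.Agent.P091.CH.H847
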