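import Vale.Agent.P091.CH.H847.Samp

/-!
# Carleson-Hunt on the finite grid: exact discretisation (DISC)
-/

open Finset
open scoped ContDiff

namespace Vale.Agent.P091.CH.H847

open Vale.Agent.P091.CH

variable {K : ℕ}

/-! ## smooth functions and their differences -/

/-- the smooth step, `0` for `t ≤ 0`, `1` for `1 ≤ t` -/
noncomputable def G (t : ℝ) : ℂ := ((Real.smoothTransition t : ℝ) : ℂ)

theorem G_zero {t : ℝ} (ht : t ≤ 0) : G t = 0 := by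
  unfold G
  rw [Real.smoothTransition.zero_of_nonpos ht, Complex.ofReal_zero]

theorem G_one {t : ℝ} (ht : 1 ≤ t) : G t = 1 := by
  unfold G
  rw [Real.smoothTransition.one_of_one_le ht, Complex.ofReal_one]

theorem norm_G_le (t : ℝ) : ‖G t‖ ≤ 1 := by
  unfold G
  rw [Complex.norm_real, Real.norm_eq_abs, abs_of_nonneg (Real.smoothTransition.nonneg t)]
  exact Real.smoothTransition.le_one t

theorem G_contDiff : ContDiff ℝ ∞ G := by
  have h : ContDiff ℝ ∞ Real.smoothTransition := Real.smoothTransition.contDiff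
  exact Complex.ofRealCLM.contDiff.comp h

theorem contDiff_iter {F : ℝ → ℂ} (hF : ContDiff ℝ ∞ F) (n : ℕ) : ContDiff ℝ ∞ (deriv^[n] F) := by
  induction n with
  | zero => exact hF
  | succ n ih =>
    rw [Function.iterate_succ_apply']
    exact (contDiff_infty_iff_deriv.1 ih).2

theorem deriv_G_support : HasCompactSupport (deriv G) := by
  apply HasCompactSupport.of_support_subset_isCompact (K := Set.Icc (0:ℝ) 1) isCompact_Icc
  intro t ht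
  by_contra h
  rw [Set.mem_Icc, not_and_or, not_le, not_le] at h
  apply ht
  rcases h with h | h
  · have h1 : G =ᶠ[nhds t] fun _ => (0:ℂ) := by
      filter_upwards [Iio_mem_nhds h] with s hs
      exact G_zero (le_of_lt hs)
    rw [h1.deriv_eq, deriv_const]
  · have h1 : G =ᶠ[nhds t] fun _ => (1:ℂ) := by
      filter_upwards [Ioi_mem_nhds h] with s hs
      exact G_one (le_of_lt hs)
    rw [h1.deriv_eq, deriv_const]

theorem iter_support (n : ℕ) : HasCompactSupport (deriv^[n] (deriv G)) := by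
  induction n with
  | zero => exact deriv_G_support
  | succ n ih =>
    rw [Function.iterate_succ_apply']
    exact ih.deriv

theorem G_bdd_n (n : ℕ) : ∃ B, ∀ t, ‖deriv^[n] G t‖ ≤ B := by
  rcases n with _ | n
  · exact ⟨1, norm_G_le⟩
  · obtain ⟨B, hB⟩ := (iter_support n).exists_bound_of_continuous (by
      have := contDiff_iter G_contDiff (n + 1)
      rw [Function.iterate_succ_apply] at this
      exact this.continuous)
    refine ⟨B, fun t => ?_⟩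
    rw [Function.iterate_succ_apply]
    exact hB t

theorem G_bdd : ∃ B : ℝ, 1 ≤ B ∧ ∀ n ≤ 20, ∀ t, ‖deriv^[n] G t‖ ≤ B := by
  choose b hb using G_bdd_n
  refine ⟨1 + ∑ n ∈ range 21, |b n|, ?_, ?_⟩
  · have : 0 ≤ ∑ n ∈ range 21, |b n| := Finset.sum_nonneg fun _ _ => abs_nonneg _
    linarith
  · intro n hn t
    have h1 : |b n| ≤ ∑ n ∈ range 21, |b n| :=
      Finset.single_le_sum (f := fun n => |b n|) (fun _ _ => abs_nonneg _)
        (Finset.mem_range.2 (by omega))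
    have h2 := hb n t
    have h3 := le_abs_self (b n)
    linarith

/-- the bound of the derivatives of the step -/
noncomputable def B0 : ℝ := Classical.choose G_bdd

theorem B0_one : 1 ≤ B0 := (Classical.choose_spec G_bdd).1

theorem B0_bd {n : ℕ} (hn : n ≤ 20) (t : ℝ) : ‖deriv^[n] G t‖ ≤ B0 :=
  (Classical.choose_spec G_bdd).2 n hn t

theorem fwdDiff_apply' (h : ℝ) (F : ℝ → ℂ) (t : ℝ) : fwdDiff h F t = F (t + h) - F t := rfl

theorem deriv_fwd {F : ℝ → ℂ} (hF : Differentiable ℝ F) (h : ℝ) :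
    deriv (fwdDiff h F) = fwdDiff h (deriv F) := by
  funext t
  have h1 : fwdDiff h F = fun t => F (t + h) - F t := rfl
  have h2 : DifferentiableAt ℝ (fun t => F (t + h)) t :=
    DifferentiableAt.comp t (hF (t + h)) (differentiableAt_id.add_const h)
  rw [h1, deriv_fun_sub h2 (hF t), deriv_comp_add_const]
  rfl

theorem deriv_fwd_iter (n : ℕ) : ∀ {F : ℝ → ℂ}, ContDiff ℝ ∞ F → ∀ h : ℝ,
    deriv^[n] (fwdDiff h F) = fwdDiff h (deriv^[n] F) := by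
  induction n with
  | zero => intro F _ h; rfl
  | succ n ih =>
    intro F hF h
    have h1 := contDiff_infty_iff_deriv.1 hF
    rw [Function.iterate_succ_apply, deriv_fwd h1.1, ih h1.2, Function.iterate_succ_apply]

theorem fwd_contDiff {F : ℝ → ℂ} (hF : ContDiff ℝ ∞ F) (h : ℝ) : ContDiff ℝ ∞ (fwdDiff h F) := by
  have h1 : fwdDiff h F = fun t => F (t + h) - F t := rfl
  rw [h1]
  exact (hF.comp (contDiff_id.add contDiff_const)).sub hF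

theorem fwd_bound (n : ℕ) : ∀ {F : ℝ → ℂ}, ContDiff ℝ ∞ F → ∀ {M : ℝ},
    (∀ t, ‖deriv^[n] F t‖ ≤ M) → ∀ (h t : ℝ), ‖(fwdDiff h)^[n] F t‖ ≤ M * |h| ^ n := by
  induction n with
  | zero =>
    intro F _ M hM h t
    simpa using hM t
  | succ n ih =>
    intro F hF M hM h t
    rw [Function.iterate_succ_apply]
    have h1 : ∀ t, ‖deriv^[n] (fwdDiff h F) t‖ ≤ M * |h| := by
      intro t
      rw [deriv_fwd_iter n hF, fwdDiff_apply']
      have h2 := contDiff_infty_iff_deriv.1 (contDiff_iter hF n)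
      have h3 := Convex.norm_image_sub_le_of_norm_deriv_le (f := deriv^[n] F) (C := M)
        (s := Set.univ) (x := t) (y := t + h) (fun x _ => h2.1 x)
        (fun x _ => by
          have := hM x
          rw [Function.iterate_succ_apply'] at this
          exact this) convex_univ (Set.mem_univ _) (Set.mem_univ _)
      have h4 : t + h - t = h := by ring
      rw [h4, Real.norm_eq_abs] at h3
      exact h3
    have h5 := ih (fwd_contDiff hF h) h1 h t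
    refine h5.trans (le_of_eq ?_)
    ring

theorem comp_iter (F : ℝ → ℂ) (c h : ℝ) (i : ℕ) :
    D^[i] (fun ξ : ℤ => F (c + ξ * h)) = fun ξ : ℤ => (fwdDiff h)^[i] F (c + ξ * h) := by
  induction i with
  | zero => rfl
  | succ i ih =>
    rw [Function.iterate_succ_apply', ih]
    funext ξ
    rw [D_apply, Function.iterate_succ_apply', fwdDiff_apply']
    have h1 : c + ((ξ + 1 : ℤ) : ℝ) * h = c + ξ * h + h := by
      push_cast
      ring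
    rw [h1]

/-- differences of the step along an arithmetic progression -/
theorem step_diff {i : ℕ} (hi : i ≤ 20) (c h : ℝ) (η : ℤ) :
    ‖D^[i] (fun ξ : ℤ => G (c + ξ * h)) η‖ ≤ B0 * |h| ^ i := by
  rw [comp_iter]
  exact fwd_bound i G_contDiff (fun t => B0_bd hi t) h _

/-! ## the symbols -/

/-- the step at `l 2^k`: `1` for `ξ ≤ (l - 4) 2^k`, `0` for `(l - 3) 2^k ≤ ξ` -/
noncomputable def th (k : ℕ) (l ξ : ℤ) : ℂ := G ((l:ℝ) - 3 + (ξ:ℝ) * (-((2:ℝ) ^ k)⁻¹))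

/-- the annulus -/
noncomputable def bb (k : ℕ) (l ξ : ℤ) : ℂ := th k l ξ - th (k + 1) (l / 2) ξ

/-- the synthesis bump -/
noncomputable def rh (k : ℕ) (l ξ : ℤ) : ℂ :=
  G ((l:ℝ) - 2 + (ξ:ℝ) * (-((2:ℝ) ^ k)⁻¹)) * G (10 - (l:ℝ) + (ξ:ℝ) * ((2:ℝ) ^ k)⁻¹)

theorem th_one {k : ℕ} {l ξ : ℤ} (h : 4 ≤ (l:ℝ) - ξ * ((2:ℝ) ^ k)⁻¹) : th k l ξ = 1 := by
  unfold th
  apply G_one
  linarith

theorem th_zero {k : ℕ} {l ξ : ℤ} (h : (l:ℝ) - ξ * ((2:ℝ) ^ k)⁻¹ ≤ 3) : th k l ξ = 0 := by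
  unfold th
  apply G_zero
  linarith

theorem half_bounds (k : ℕ) (l ξ : ℤ) :
    ((l:ℝ) - ξ * ((2:ℝ) ^ k)⁻¹) / 2 - 1 / 2 ≤ ((l / 2 : ℤ) : ℝ) - ξ * ((2:ℝ) ^ (k + 1))⁻¹ ∧
    ((l / 2 : ℤ) : ℝ) - ξ * ((2:ℝ) ^ (k + 1))⁻¹ ≤ ((l:ℝ) - ξ * ((2:ℝ) ^ k)⁻¹) / 2 := by
  have h1 : ((2:ℝ) ^ (k + 1))⁻¹ = ((2:ℝ) ^ k)⁻¹ / 2 := by
    rw [pow_succ, mul_inv]
    ring
  have h2 : l - 1 ≤ 2 * (l / 2) := by omega
  have h3 : 2 * (l / 2) ≤ l := by omega
  have h4 : (l:ℝ) - 1 ≤ 2 * ((l / 2 : ℤ) : ℝ) := by exact_mod_cast h2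
  have h5 : 2 * ((l / 2 : ℤ) : ℝ) ≤ (l:ℝ) := by exact_mod_cast h3
  rw [h1]
  constructor <;> linarith

theorem bb_zero_low {k : ℕ} {l ξ : ℤ} (h : (l:ℝ) - ξ * ((2:ℝ) ^ k)⁻¹ ≤ 3) : bb k l ξ = 0 := by
  unfold bb
  have h1 := half_bounds k l ξ
  rw [th_zero h, th_zero (by linarith [h1.2]), sub_zero]

theorem bb_zero_high {k : ℕ} {l ξ : ℤ} (h : 9 ≤ (l:ℝ) - ξ * ((2:ℝ) ^ k)⁻¹) : bb k l ξ = 0 := by
  unfold bb
  have h1 := half_bounds k l ξ
  rw [th_one (by linarith), th_one (by linarith [h1.1]), sub_self]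

theorem rh_one {k : ℕ} {l ξ : ℤ} (h : 3 ≤ (l:ℝ) - ξ * ((2:ℝ) ^ k)⁻¹)
    (h' : (l:ℝ) - ξ * ((2:ℝ) ^ k)⁻¹ ≤ 9) : rh k l ξ = 1 := by
  unfold rh
  rw [G_one (by linarith), G_one (by linarith), mul_one]

theorem bb_rh (k : ℕ) (l ξ : ℤ) : bb k l ξ * rh k l ξ = bb k l ξ := by
  rcases le_total ((l:ℝ) - ξ * ((2:ℝ) ^ k)⁻¹) 3 with h | h
  · rw [bb_zero_low h, zero_mul]
  rcases le_total 9 ((l:ℝ) - ξ * ((2:ℝ) ^ k)⁻¹) with h' | h'
  · rw [bb_zero_high h', zero_mul]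
  rw [rh_one h h', mul_one]

theorem t_gt {k : ℕ} {l ξ : ℤ} {c : ℤ} (h : ξ < (l - c) * 2 ^ k) :
    (c:ℝ) < (l:ℝ) - ξ * ((2:ℝ) ^ k)⁻¹ := by
  have h1 : (ξ:ℝ) < ((l:ℝ) - c) * 2 ^ k := by exact_mod_cast h
  have h2 : (0:ℝ) < 2 ^ k := by positivity
  have h3 : (ξ:ℝ) * ((2:ℝ) ^ k)⁻¹ < (l:ℝ) - c := by
    rw [← div_eq_mul_inv, div_lt_iff₀ h2]
    exact h1
  linarith

theorem t_le {k : ℕ} {l ξ : ℤ} {c : ℤ} (h : (l - c) * 2 ^ k ≤ ξ) :
    (l:ℝ) - ξ * ((2:ℝ) ^ k)⁻¹ ≤ c := by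
  have h1 : ((l:ℝ) - c) * 2 ^ k ≤ ξ := by exact_mod_cast h
  have h2 : (0:ℝ) < 2 ^ k := by positivity
  have h3 : (l:ℝ) - c ≤ (ξ:ℝ) * ((2:ℝ) ^ k)⁻¹ := by
    rw [← div_eq_mul_inv, le_div_iff₀ h2]
    exact h1
  linarith

theorem bb_supp (k : ℕ) (l : ℤ) : ∀ ξ, ξ < (l - 10) * 2 ^ k ∨ (l - 2) * 2 ^ k ≤ ξ → bb k l ξ = 0 := by
  intro ξ hξ
  rcases hξ with h | h
  · have := t_gt h
    push_cast at this
    exact bb_zero_high (by linarith)
  · have := t_le h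
    push_cast at this
    exact bb_zero_low (by linarith)

theorem rh_supp (k : ℕ) (l : ℤ) : ∀ ξ, ξ < (l - 10) * 2 ^ k ∨ (l - 2) * 2 ^ k ≤ ξ → rh k l ξ = 0 := by
  intro ξ hξ
  unfold rh
  rcases hξ with h | h
  · have := t_gt h
    push_cast at this
    rw [G_zero (t := 10 - (l:ℝ) + (ξ:ℝ) * ((2:ℝ) ^ k)⁻¹) (by linarith), mul_zero]
  · have := t_le h
    push_cast at this
    rw [G_zero (t := (l:ℝ) - 2 + (ξ:ℝ) * (-((2:ℝ) ^ k)⁻¹)) (by linarith), zero_mul]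

theorem th_diff (k : ℕ) (l : ℤ) {i : ℕ} (hi : i ≤ 20) (ξ : ℤ) :
    ‖D^[i] (th k l) ξ‖ ≤ B0 * (((2:ℝ) ^ k)⁻¹) ^ i := by
  have h := step_diff hi ((l:ℝ) - 3) (-((2:ℝ) ^ k)⁻¹) ξ
  rw [abs_neg, abs_of_pos (by positivity)] at h
  exact h

theorem bb_diff (k : ℕ) (l : ℤ) {i : ℕ} (hi : i ≤ 20) (ξ : ℤ) :
    ‖D^[i] (bb k l) ξ‖ ≤ 2 * B0 * (((2:ℝ) ^ k)⁻¹) ^ i := by
  have h1 : bb k l = th k l + (-1 : ℂ) • th (k + 1) (l / 2) := by
    funext ξ
    simp only [bb, Pi.add_apply, Pi.smul_apply, smul_eq_mul]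
    ring
  have h2 : D^[i] (bb k l) ξ = D^[i] (th k l) ξ - D^[i] (th (k + 1) (l / 2)) ξ := by
    rw [h1]
    have h3 := fwdDiff_iter_add (1:ℤ) (th k l) ((-1 : ℂ) • th (k + 1) (l / 2)) i
    have h4 := fwdDiff_iter_const_smul (1:ℤ) (-1 : ℂ) (th (k + 1) (l / 2)) i
    have h5 : D^[i] (th k l + (-1 : ℂ) • th (k + 1) (l / 2))
        = D^[i] (th k l) + (-1 : ℂ) • D^[i] (th (k + 1) (l / 2)) := by
      rw [← h4]
      exact h3
    rw [h5]
    simp only [Pi.add_apply, Pi.smul_apply, smul_eq_mul]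
    ring
  rw [h2]
  have h6 := th_diff k l hi ξ
  have h7 := th_diff (k + 1) (l / 2) hi ξ
  have h8 : (((2:ℝ) ^ (k + 1))⁻¹) ^ i ≤ (((2:ℝ) ^ k)⁻¹) ^ i := by
    apply pow_le_pow_left₀ (by positivity)
    apply inv_anti₀ (by positivity)
    exact pow_le_pow_right₀ (by norm_num) (by omega)
  have hB := B0_one
  calc ‖D^[i] (th k l) ξ - D^[i] (th (k + 1) (l / 2)) ξ‖
      ≤ ‖D^[i] (th k l) ξ‖ + ‖D^[i] (th (k + 1) (l / 2)) ξ‖ := norm_sub_le _ _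
    _ ≤ B0 * (((2:ℝ) ^ k)⁻¹) ^ i + B0 * (((2:ℝ) ^ (k + 1))⁻¹) ^ i := add_le_add h6 h7
    _ ≤ B0 * (((2:ℝ) ^ k)⁻¹) ^ i + B0 * (((2:ℝ) ^ k)⁻¹) ^ i := by gcongr
    _ = _ := by ring

theorem rh_diff (k : ℕ) (l : ℤ) {i : ℕ} (hi : i ≤ 20) (ξ : ℤ) :
    ‖D^[i] (rh k l) ξ‖ ≤ 2 ^ 20 * (B0 * B0) * (((2:ℝ) ^ k)⁻¹) ^ i := by
  have hB := B0_one
  have h := D_iter_mul i (fun ξ : ℤ => G ((l:ℝ) - 2 + (ξ:ℝ) * (-((2:ℝ) ^ k)⁻¹)))
    (fun ξ : ℤ => G (10 - (l:ℝ) + (ξ:ℝ) * ((2:ℝ) ^ k)⁻¹)) B0 B0 (((2:ℝ) ^ k)⁻¹) ξ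
    (by linarith) (by linarith) (by positivity)
    (by
      intro j hj s _
      have h1 := step_diff (i := j) (by omega) ((l:ℝ) - 2) (-((2:ℝ) ^ k)⁻¹) (ξ + s)
      rw [abs_neg, abs_of_pos (by positivity)] at h1
      exact h1)
    (by
      intro j hj s _
      have h1 := step_diff (i := j) (by omega) (10 - (l:ℝ)) (((2:ℝ) ^ k)⁻¹) (ξ + s)
      rw [abs_of_pos (by positivity)] at h1
      exact h1)
  refine (le_trans (le_of_eq rfl) h).trans ?_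
  have h9 : (2:ℝ) ^ i ≤ 2 ^ 20 := pow_le_pow_right₀ (by norm_num) hi
  calc (2:ℝ) ^ i * (B0 * B0 * (((2:ℝ) ^ k)⁻¹) ^ i)
      ≤ 2 ^ 20 * (B0 * B0 * (((2:ℝ) ^ k)⁻¹) ^ i) := by gcongr
    _ = _ := by ring

/-- the constant of the symbols -/
noncomputable def BS : ℝ := 2 ^ 20 * (B0 * B0) + 2 * B0

theorem isSym_bb : IsSym BS bb := by
  intro k l
  refine ⟨bb_supp k l, fun i hi ξ => ?_⟩
  have h := bb_diff k l hi ξ
  rw [inv_pow, ← pow_mul] at h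
  refine le_trans h ?_
  have hB := B0_one
  unfold BS
  have : 0 ≤ 2 ^ 20 * (B0 * B0) := by positivity
  gcongr
  linarith

theorem isSym_rh : IsSym BS rh := by
  intro k l
  refine ⟨rh_supp k l, fun i hi ξ => ?_⟩
  have h := rh_diff k l hi ξ
  rw [inv_pow, ← pow_mul] at h
  refine le_trans h ?_
  have hB := B0_one
  unfold BS
  gcongr
  linarith

/-! ## telescoping -/

theorem tele (κ : ℕ) (N ξ : ℤ) :
    ∑ k ∈ range κ, bb k (N / 2 ^ k) ξ = th 0 N ξ - th κ (N / 2 ^ κ) ξ := by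
  have h := Finset.sum_range_sub' (fun k => th k (N / 2 ^ k) ξ) κ
  simp only [pow_zero, Int.ediv_one] at h
  rw [← h]
  refine Finset.sum_congr rfl fun k _ => ?_
  unfold bb
  have h1 : N / 2 ^ k / 2 = N / 2 ^ (k + 1) := by
    rw [pow_succ, Int.ediv_ediv_of_nonneg (by positivity)]
  rw [h1]

/-- the tile sum over the scales `k < κ` (no hypothesis on `f` and `N`) -/
theorem disc_trunc {κ : ℕ} (hκ : κ + 2 ≤ K) (f : X K → ℂ) (N : ℤ) (x : X K) :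
    ∑ r ∈ range 8, ∑ k ∈ range κ, ∑ j ∈ range (2 ^ k),
        (8:ℂ)⁻¹ * (tl k j N).len * co bb r f (tl k j N) * pk rh r (tl k j N) x
      = mul (fun ξ => th 0 N ξ - th κ (N / 2 ^ κ) ξ) f x := by
  rw [Finset.sum_comm]
  have h1 : ∀ k ∈ range κ, ∑ r ∈ range 8, ∑ j ∈ range (2 ^ k),
        (8:ℂ)⁻¹ * (tl k j N).len * co bb r f (tl k j N) * pk rh r (tl k j N) x
      = mul (bb k (N / 2 ^ k)) f x := by
    intro k hk
    rw [Finset.mem_range] at hk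
    have hs := sampling (K := K) (k := k) (by omega) (g := bb k (N / 2 ^ k)) (h := rh k (N / 2 ^ k))
      ((N / 2 ^ k - 10) * 2 ^ k)
      (by
        intro ξ hξ
        apply bb_supp
        have h2 : (N / 2 ^ k - 10) * 2 ^ k + 2 ^ (k + 3) = (N / 2 ^ k - 2) * 2 ^ k := by
          rw [pow_add]; ring
        rw [← h2]
        exact hξ)
      (by
        intro ξ hξ
        apply rh_supp
        have h2 : (N / 2 ^ k - 10) * 2 ^ k + 2 ^ (k + 3) = (N / 2 ^ k - 2) * 2 ^ k := by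
          rw [pow_add]; ring
        rw [← h2]
        exact hξ) f x
    have h3 : (fun ξ => bb k (N / 2 ^ k) ξ * rh k (N / 2 ^ k) ξ) = bb k (N / 2 ^ k) := by
      funext ξ
      exact bb_rh _ _ _
    rw [h3] at hs
    have h4 : ∀ r j : ℕ, (8:ℂ)⁻¹ * (tl k j N).len * co bb r f (tl k j N) * pk rh r (tl k j N) x
        = ((2:ℂ) ^ (k + 3))⁻¹ * (mul (bb k (N / 2 ^ k)) f (pt K k j r) *
          ker (rh k (N / 2 ^ k)) (x - pt K k j r)) := by
      intro r j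
      unfold co pk tl Tile.len
      simp only
      push_cast
      rw [pow_add]
      ring
    simp_rw [h4]
    simp_rw [← Finset.mul_sum]
    rw [hs]
    field_simp
  rw [Finset.sum_congr rfl h1, ← mul_sum]
  congr 1
  funext ξ
  exact tele κ N ξ

/-! ## the two remainders -/

theorem rem_low (f : X K → ℂ) (N : ℤ) (x : X K) :
    ‖mul (fun ξ => (if ξ < N then 1 else 0) - th 0 N ξ) f x‖ ≤ 3 * ave (fun y => ‖f y‖) := by
  unfold mul
  have h0 : ∀ ξ : ℤ, ‖((if ξ < N then 1 else 0 : ℂ) - th 0 N ξ)‖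
      ≤ if ξ ∈ Ico (N - 3) N then 1 else 0 := by
    intro ξ
    by_cases h : ξ ∈ Ico (N - 3) N
    · rw [if_pos h]
      rw [Finset.mem_Ico] at h
      rw [if_pos h.2]
      have h1 : (1:ℂ) - th 0 N ξ = (((1 - Real.smoothTransition ((N:ℝ) - 3 +
          (ξ:ℝ) * (-((2:ℝ) ^ 0)⁻¹))) : ℝ) : ℂ) := by
        unfold th G
        push_cast
        rfl
      rw [h1, Complex.norm_real, Real.norm_eq_abs, abs_of_nonneg]
      · linarith [Real.smoothTransition.nonneg ((N:ℝ) - 3 + (ξ:ℝ) * (-((2:ℝ) ^ 0)⁻¹))]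
      · linarith [Real.smoothTransition.le_one ((N:ℝ) - 3 + (ξ:ℝ) * (-((2:ℝ) ^ 0)⁻¹))]
    · rw [if_neg h]
      rw [Finset.mem_Ico, not_and_or, not_le, not_lt] at h
      apply le_of_eq
      rw [norm_eq_zero]
      rcases h with h | h
      · rw [if_pos (by linarith)]
        have h2 : ξ < (N - 3) * 2 ^ 0 := by simpa using h
        have h4 : ξ ≤ N - 4 := by linarith
        have h5 : (ξ:ℝ) ≤ N - 4 := by exact_mod_cast h4
        rw [th_one, sub_self]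
        simp only [pow_zero, inv_one, mul_one]
        linarith
      · rw [if_neg (by linarith)]
        have h5 : (N:ℝ) ≤ ξ := by exact_mod_cast h
        rw [th_zero, sub_zero]
        simp only [pow_zero, inv_one, mul_one]
        linarith
  refine (norm_sum_le _ _).trans ?_
  have hA : 0 ≤ ave (fun y => ‖f y‖) := ave_nonneg fun y => norm_nonneg _
  have h1 : ∀ ξ ∈ win K, ‖((if ξ < N then 1 else 0 : ℂ) - th 0 N ξ) * fc f ξ * ch ξ x‖
      ≤ (if ξ ∈ Ico (N - 3) N then 1 else 0) * ave (fun y => ‖f y‖) := by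
    intro ξ _
    rw [norm_mul, norm_mul, norm_ch, mul_one]
    exact mul_le_mul (h0 ξ) (norm_fc_le f ξ) (norm_nonneg _) (by split_ifs <;> norm_num)
  refine (Finset.sum_le_sum h1).trans ?_
  rw [← Finset.sum_mul]
  gcongr
  rw [← Finset.sum_filter]
  rw [Finset.sum_const, nsmul_eq_mul, mul_one]
  have h2 : ((win K).filter (fun ξ => ξ ∈ Ico (N - 3) N)).card ≤ (Ico (N - 3) N).card := by
    apply Finset.card_le_card
    intro ξ hξ
    exact (Finset.mem_filter.1 hξ).2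
  rw [Int.card_Ico] at h2
  have h3 : (N - (N - 3)).toNat = 3 := by
    have : N - (N - 3) = 3 := by ring
    rw [this]
    rfl
  rw [h3] at h2
  exact_mod_cast h2

/-- the lower cut-off, `0` for `8 ξ ≤ 2^K`, `1` for `2^K ≤ 4 ξ` -/
noncomputable def ze (K : ℕ) (ξ : ℤ) : ℂ := G (-1 + (ξ:ℝ) * (8 * ((2:ℝ) ^ K)⁻¹))

theorem ze_one {ξ : ℤ} (h : (2:ℤ) ^ K ≤ 4 * ξ) : ze K ξ = 1 := by
  unfold ze
  apply G_one
  have h1 : (2:ℝ) ^ K ≤ 4 * ξ := by exact_mod_cast h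
  have h2 : (0:ℝ) < 2 ^ K := by positivity
  have h3 : 2 ≤ (ξ:ℝ) * (8 * ((2:ℝ) ^ K)⁻¹) := by
    rw [← mul_assoc, ← div_eq_mul_inv, le_div_iff₀ h2]
    linarith
  linarith

theorem ze_zero {ξ : ℤ} (h : ξ ≤ 0) : ze K ξ = 0 := by
  unfold ze
  apply G_zero
  have h1 : (ξ:ℝ) ≤ 0 := by exact_mod_cast h
  have h2 : (0:ℝ) < ((2:ℝ) ^ K)⁻¹ := by positivity
  have h3 : (ξ:ℝ) * (8 * ((2:ℝ) ^ K)⁻¹) ≤ 0 := mul_nonpos_of_nonpos_of_nonneg h1 (by positivity)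
  linarith

/-- the top part of the telescoping sum -/
theorem rem_top {κ : ℕ} (hκ : κ + 6 = K) {f : X K → ℂ}
    (hf : ∀ ξ : ℤ, 0 ≤ ξ → 4 * ξ < 2 ^ K → fc f ξ = 0) {N : ℤ} (hN : 4 * N < 3 * 2 ^ K) (x : X K) :
    ‖mul (th κ (N / 2 ^ κ)) f x‖
      ≤ 8 * (2 ^ 2 * (2 * 64 + 2) * (2 ^ 2 * (B0 * B0 * 64 ^ 2))) * MX (fun y => ‖f y‖) x := by
  have hB := B0_one
  set m : ℤ → ℂ := fun ξ => th κ (N / 2 ^ κ) ξ * ze K ξ with hm
  have h1 : mul (th κ (N / 2 ^ κ)) f x = mul m f x := by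
    apply mul_congr
    intro ξ hξ
    unfold win at hξ
    rw [Finset.mem_Ico] at hξ
    by_cases h : 4 * ξ < 2 ^ K
    · left
      exact hf ξ hξ.1 h
    · right
      rw [hm]
      simp only
      rw [ze_one (by linarith), mul_one]
  rw [h1]
  have hκ0 : (0:ℤ) < 2 ^ κ := by positivity
  have hK : (2:ℤ) ^ K = 64 * 2 ^ κ := by
    rw [← hκ, pow_add]
    ring
  have hKR : (2:ℝ) ^ K = 64 * 2 ^ κ := by
    rw [← hκ, pow_add]
    ring
  have hsupp : ∀ ξ, ξ < 0 ∨ 2 ^ K ≤ ξ → m ξ = 0 := by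
    intro ξ hξ
    rw [hm]
    simp only
    rcases hξ with h | h
    · rw [ze_zero (le_of_lt h), mul_zero]
    · have h2 : N / 2 ^ κ * 2 ^ κ ≤ N := Int.ediv_mul_le N (ne_of_gt hκ0)
      have h3 : (N / 2 ^ κ - 3) * 2 ^ κ ≤ ξ := by nlinarith
      have h4 := t_le h3
      push_cast at h4
      rw [th_zero h4, zero_mul]
  have hdiff : ∀ i ≤ 2, ∀ ξ, ‖D^[i] m ξ‖ ≤ 2 ^ 2 * (B0 * B0 * 64 ^ 2) * (((2:ℝ) ^ κ)⁻¹ * (1 / 64)) ^ i := by
    intro i hi ξ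
    have h2 := D_iter_mul i (th κ (N / 2 ^ κ)) (ze K) B0 B0 (((2:ℝ) ^ κ)⁻¹) ξ
      (by linarith) (by linarith) (by positivity)
      (fun j hj s _ => th_diff κ _ (by omega) _)
      (by
        intro j hj s _
        have h3 := step_diff (i := j) (by omega) (-1) (8 * ((2:ℝ) ^ K)⁻¹) (ξ + s)
        rw [abs_of_pos (by positivity)] at h3
        refine h3.trans ?_
        have h4 : 8 * ((2:ℝ) ^ K)⁻¹ ≤ ((2:ℝ) ^ κ)⁻¹ := by
          rw [hKR, mul_inv]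
          have : (0:ℝ) < ((2:ℝ) ^ κ)⁻¹ := by positivity
          linarith
        gcongr)
    refine h2.trans ?_
    rw [mul_pow]
    have h5 : (2:ℝ) ^ i ≤ 2 ^ 2 := pow_le_pow_right₀ (by norm_num) hi
    have h6 : (1:ℝ) ≤ 64 ^ 2 * (1 / 64) ^ i := by
      have : ((1:ℝ) / 64) ^ 2 ≤ (1 / 64) ^ i := pow_le_pow_of_le_one (by norm_num) (by norm_num) hi
      linarith
    have h7 : (0:ℝ) ≤ B0 * B0 * (((2:ℝ) ^ κ)⁻¹) ^ i := by positivity
    calc (2:ℝ) ^ i * (B0 * B0 * (((2:ℝ) ^ κ)⁻¹) ^ i)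
        ≤ 2 ^ 2 * (B0 * B0 * (((2:ℝ) ^ κ)⁻¹) ^ i) := by gcongr
      _ = 2 ^ 2 * (B0 * B0 * (((2:ℝ) ^ κ)⁻¹) ^ i) * 1 := by ring
      _ ≤ 2 ^ 2 * (B0 * B0 * (((2:ℝ) ^ κ)⁻¹) ^ i) * (64 ^ 2 * (1 / 64) ^ i) := by gcongr
      _ = _ := by ring
  have hh : ((2:ℝ) ^ κ)⁻¹ * (1 / 64) = ((2:ℝ) ^ K)⁻¹ := by
    rw [hKR, mul_inv]
    ring
  rw [hh] at hdiff
  have hK1 : (1:ℝ) ≤ 2 ^ K := one_le_pow₀ (by norm_num)
  refine mul_le_MX (k := K) le_rfl (by positivity) ?_ f x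
  intro z
  have h8 := S_decay (K := K) 2 (g := m) (a := 0) (b := 2 ^ K) (by positivity) hsupp
    (M := 2 ^ 2 * (B0 * B0 * 64 ^ 2)) (h := ((2:ℝ) ^ K)⁻¹) (R := 64) (by positivity)
    (by positivity) (inv_le_one_of_one_le₀ hK1)
    (by
      rw [div_inv_eq_mul]
      push_cast
      linarith)
    (fun η => by simpa using hdiff 0 (by norm_num) η)
    (fun η => hdiff 2 le_rfl η) z
  rw [ker_eq_S le_rfl le_rfl hsupp]
  have h4 : nrm z / ((2:ℝ) ^ K)⁻¹ = 2 ^ K * nrm z := by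
    rw [div_inv_eq_mul, mul_comm]
  have h5 : (1:ℝ) / ((2:ℝ) ^ K)⁻¹ = 2 ^ K := by
    rw [one_div, inv_inv]
  rw [h4, h5] at h8
  push_cast at h8
  exact h8

theorem disc : P_DISC := by
  refine ⟨BS, 3 + 8 * (2 ^ 2 * (2 * 64 + 2) * (2 ^ 2 * (B0 * B0 * 64 ^ 2))), bb, rh,
    isSym_bb, isSym_rh, ?_⟩
  intro K hK f hf N _ hN x
  have h1 := disc_trunc (K := K) (κ := K - 6) (by omega) f N x
  rw [h1]
  unfold CN
  have h2 : mul (fun ξ => if ξ < N then (1:ℂ) else 0) f x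
      - mul (fun ξ => th 0 N ξ - th (K - 6) (N / 2 ^ (K - 6)) ξ) f x
      = mul (fun ξ => (if ξ < N then 1 else 0) - th 0 N ξ) f x
        + mul (th (K - 6) (N / 2 ^ (K - 6))) f x := by
    rw [← mul_sub, ← mul_add]
    congr 1
    funext ξ
    ring
  rw [h2]
  refine (norm_add_le _ _).trans ?_
  have h3 := rem_low f N x
  have h4 := rem_top (K := K) (κ := K - 6) (by omega) hf hN x
  have h5 : ave (fun y => ‖f y‖) ≤ MX (fun y => ‖f y‖) x := by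
    have := ave_le_MX (fun y => ‖f y‖) x
    simpa using this
  rw [add_mul]
  refine add_le_add (h3.trans ?_) h4
  gcongr

end Vale.Agent.P091.CH.H847
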