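import Vale.Agent.P091.CH.Props

/-!
# Carleson-Hunt on the finite grid: Fourier analysis on the grid (FOU1-FOU4)
-/

open Finset

namespace Vale.Agent.P091.CH.H847

open Vale.Agent.P091.CH

variable {K : ℕ}

theorem ch_add (ξ η : ℤ) (x : X K) : ch (ξ + η) x = ch ξ x * ch η x := by
  unfold ch
  rw [Int.cast_add, add_mul, AddChar.map_add_eq_mul]

theorem ch_add' (ξ : ℤ) (x y : X K) : ch ξ (x + y) = ch ξ x * ch ξ y := by
  unfold ch
  rw [mul_add, AddChar.map_add_eq_mul]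

theorem ch_zero (x : X K) : ch 0 x = 1 := by
  unfold ch
  simp

theorem ch_zero' (ξ : ℤ) : ch ξ (0 : X K) = 1 := by
  unfold ch
  simp

theorem norm_ch (ξ : ℤ) (x : X K) : ‖ch ξ x‖ = 1 := by
  unfold ch
  rw [ZMod.stdAddChar_apply]
  exact Circle.norm_coe _

theorem ch_neg' (ξ : ℤ) (x : X K) : ch ξ (-x) = ch (-ξ) x := by
  unfold ch
  rw [Int.cast_neg, mul_neg, neg_mul]

theorem ch_mul_neg (ξ : ℤ) (x : X K) : ch ξ x * ch (-ξ) x = 1 := by
  rw [← ch_add, add_neg_cancel, ch_zero]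

theorem conj_ch (ξ : ℤ) (x : X K) : (starRingEnd ℂ) (ch ξ x) = ch (-ξ) x := by
  have h1 : ch ξ x ≠ 0 := by
    intro h
    have := norm_ch ξ x
    rw [h, norm_zero] at this
    exact zero_ne_one this
  have h2 : ch ξ x * (starRingEnd ℂ) (ch ξ x) = 1 := by
    rw [Complex.mul_conj, Complex.normSq_eq_norm_sq, norm_ch]
    norm_num
  have h3 := ch_mul_neg ξ x
  exact mul_left_cancel₀ h1 (h2.trans h3.symm)

theorem ch_sub' (ξ : ℤ) (x y : X K) : ch ξ (x - y) = ch ξ x * ch (-ξ) y := by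
  rw [sub_eq_add_neg, ch_add', ch_neg']

theorem ch_period (ξ : ℤ) (x : X K) : ch (ξ + 2 ^ K) x = ch ξ x := by
  unfold ch
  congr 2
  have h : ((2 ^ K : ℤ) : ZMod (2 ^ K)) = 0 := by
    have := ZMod.natCast_self (2 ^ K)
    rw [← this]
    push_cast
    ring
  rw [Int.cast_add, h, add_zero]

theorem ch_eq_of_cast {ξ η : ℤ} (h : (ξ : ZMod (2 ^ K)) = (η : ZMod (2 ^ K))) (x : X K) :
    ch ξ x = ch η x := by
  unfold ch
  rw [h]

theorem cast_eq_zero_iff (ξ : ℤ) : ((ξ : ZMod (2 ^ K)) = 0) ↔ (2 ^ K : ℤ) ∣ ξ := by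
  have := ZMod.intCast_zmod_eq_zero_iff_dvd ξ (2 ^ K)
  push_cast at this
  exact this

theorem sum_ch (ξ : ℤ) : ∑ x : X K, ch ξ x = if (2 ^ K : ℤ) ∣ ξ then (2 : ℂ) ^ K else 0 := by
  have h := AddChar.sum_mulShift (R := ZMod (2 ^ K)) (R' := ℂ) (ξ : ZMod (2 ^ K))
    (ZMod.isPrimitive_stdAddChar (2 ^ K))
  have h2 : ∑ x : X K, ch ξ x = ∑ x : ZMod (2 ^ K), ZMod.stdAddChar (x * (ξ : ZMod (2 ^ K))) := by
    refine Finset.sum_congr rfl fun x _ => ?_
    unfold ch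
    rw [mul_comm]
  rw [h2, h]
  by_cases hd : (2 ^ K : ℤ) ∣ ξ
  · rw [if_pos hd, if_pos ((cast_eq_zero_iff ξ).2 hd), ZMod.card]
    push_cast
    rfl
  · rw [if_neg hd, if_neg (fun h => hd ((cast_eq_zero_iff ξ).1 h)), Nat.cast_zero]

/-- summation over the window is summation over the grid -/
theorem sum_win_eq {M : Type*} [AddCommMonoid M] (g : ZMod (2 ^ K) → M) :
    ∑ ξ ∈ win K, g (ξ : ZMod (2 ^ K)) = ∑ z : ZMod (2 ^ K), g z := by
  symm
  refine Finset.sum_bij (fun z _ => (z.val : ℤ)) ?_ ?_ ?_ ?_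
  · intro z _
    unfold win
    rw [Finset.mem_Ico]
    refine ⟨by positivity, ?_⟩
    have := ZMod.val_lt z
    exact_mod_cast this
  · intro a _ b _ h
    have : a.val = b.val := by exact_mod_cast h
    exact ZMod.val_injective _ this
  · intro ξ hξ
    unfold win at hξ
    rw [Finset.mem_Ico] at hξ
    refine ⟨(ξ : ZMod (2 ^ K)), Finset.mem_univ _, ?_⟩
    rw [ZMod.val_intCast]
    push_cast
    exact Int.emod_eq_of_lt hξ.1 hξ.2
  · intro z _
    simp

theorem sum_win_ch (x : X K) : ∑ ξ ∈ win K, ch ξ x = if x = 0 then (2 : ℂ) ^ K else 0 := by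
  have h1 : ∑ ξ ∈ win K, ch ξ x = ∑ z : ZMod (2 ^ K), ZMod.stdAddChar (z * x) :=
    sum_win_eq (fun z => ZMod.stdAddChar (z * x))
  rw [h1, AddChar.sum_mulShift (R := ZMod (2 ^ K)) (R' := ℂ) x (ZMod.isPrimitive_stdAddChar (2 ^ K))]
  by_cases hx : x = 0
  · rw [if_pos hx, if_pos hx, ZMod.card]
    push_cast
    rfl
  · rw [if_neg hx, if_neg hx, Nat.cast_zero]

theorem fou1 : P_FOU1 := by
  intro K m f x
  unfold mul fc aveC ker
  have h : ∀ y : X K, f y * ∑ ξ ∈ win K, m ξ * ch ξ (x - y)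
      = ∑ ξ ∈ win K, m ξ * ch ξ x * (f y * ch (-ξ) y) := by
    intro y
    rw [Finset.mul_sum]
    refine Finset.sum_congr rfl fun ξ _ => ?_
    rw [ch_sub']
    ring
  simp_rw [h]
  rw [Finset.sum_comm, Finset.sum_div]
  refine Finset.sum_congr rfl fun ξ _ => ?_
  rw [← Finset.mul_sum]
  ring

theorem fou2 : P_FOU2 := by
  intro K f x
  unfold fc aveC
  have h1 : ∑ ξ ∈ win K, (∑ y : X K, f y * ch (-ξ) y) / 2 ^ K * ch ξ x
      = ∑ y : X K, f y / 2 ^ K * ∑ ξ ∈ win K, ch ξ (x - y) := by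
    simp_rw [Finset.mul_sum]
    rw [Finset.sum_comm]
    refine Finset.sum_congr rfl fun ξ _ => ?_
    rw [Finset.sum_div, Finset.sum_mul]
    refine Finset.sum_congr rfl fun y _ => ?_
    rw [ch_sub']
    ring
  rw [h1]
  simp_rw [sum_win_ch]
  rw [Finset.sum_eq_single x]
  · rw [sub_self, if_pos rfl]
    field_simp
  · intro y _ hy
    rw [if_neg (sub_ne_zero.2 (Ne.symm hy)), mul_zero]
  · intro h
    exact absurd (Finset.mem_univ x) h

theorem fou4 : P_FOU4 := by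
  intro K ξ η hξ hη
  unfold aveC
  have h1 : ∑ x : X K, ch ξ x * (starRingEnd ℂ) (ch η x) = ∑ x : X K, ch (ξ - η) x := by
    refine Finset.sum_congr rfl fun x _ => ?_
    rw [conj_ch, sub_eq_add_neg, ch_add]
  rw [h1, sum_ch]
  unfold win at hξ hη
  rw [Finset.mem_Ico] at hξ hη
  by_cases h : ξ = η
  · rw [if_pos h, h, sub_self, if_pos (dvd_zero _)]
    field_simp
  · rw [if_neg h, if_neg, zero_div]
    intro hd
    apply h
    have h2 : |ξ - η| < 2 ^ K := by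
      rw [abs_lt]
      constructor <;> linarith [hξ.1, hξ.2, hη.1, hη.2]
    have h3 := Int.eq_zero_of_abs_lt_dvd hd h2
    linarith

theorem aveC_mul_left (c : ℂ) (g : X K → ℂ) : aveC (fun x => c * g x) = c * aveC g := by
  unfold aveC
  rw [← Finset.mul_sum]
  ring

theorem aveC_sum {ι : Type*} (s : Finset ι) (g : ι → X K → ℂ) :
    aveC (fun x => ∑ i ∈ s, g i x) = ∑ i ∈ s, aveC (g i) := by
  unfold aveC
  rw [Finset.sum_comm, Finset.sum_div]

/-- Parseval for two trigonometric sums over the window -/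
theorem parseval (a b : ℤ → ℂ) :
    aveC (fun x : X K => (∑ ξ ∈ win K, a ξ * ch ξ x) * (starRingEnd ℂ) (∑ ξ ∈ win K, b ξ * ch ξ x))
      = ∑ ξ ∈ win K, a ξ * (starRingEnd ℂ) (b ξ) := by
  have h1 : ∀ x : X K, (∑ ξ ∈ win K, a ξ * ch ξ x) *
      (starRingEnd ℂ) (∑ ξ ∈ win K, b ξ * ch ξ x)
      = ∑ ξ ∈ win K, ∑ η ∈ win K, (a ξ * (starRingEnd ℂ) (b η)) *
          (ch ξ x * (starRingEnd ℂ) (ch η x)) := by
    intro x
    rw [map_sum, Finset.sum_mul_sum]
    refine Finset.sum_congr rfl fun ξ _ => Finset.sum_congr rfl fun η _ => ?_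
    rw [map_mul]
    ring
  simp_rw [h1]
  rw [aveC_sum]
  refine Finset.sum_congr rfl fun ξ hξ => ?_
  rw [aveC_sum]
  have h2 : ∀ η ∈ win K, aveC (fun x : X K => (a ξ * (starRingEnd ℂ) (b η)) *
      (ch ξ x * (starRingEnd ℂ) (ch η x))) = if ξ = η then a ξ * (starRingEnd ℂ) (b η) else 0 := by
    intro η hη
    rw [aveC_mul_left, fou4 K ξ η hξ hη]
    by_cases h : ξ = η
    · rw [if_pos h, if_pos h, mul_one]
    · rw [if_neg h, if_neg h, mul_zero]
  rw [Finset.sum_congr rfl h2, Finset.sum_ite_eq, if_pos hξ]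

theorem fou3 : P_FOU3 := by
  intro K f
  have h1 := parseval (K := K) (fun ξ => fc f ξ) (fun ξ => fc f ξ)
  have h2 : ∀ x : X K, (∑ ξ ∈ win K, fc f ξ * ch ξ x) = f x := fun x => (fou2 K f x).symm
  simp_rw [h2] at h1
  have h3 : aveC (fun x : X K => f x * (starRingEnd ℂ) (f x))
      = ((ave (fun x => ‖f x‖ ^ 2) : ℝ) : ℂ) := by
    unfold aveC ave
    push_cast
    congr 1
    refine Finset.sum_congr rfl fun x _ => ?_
    rw [Complex.mul_conj, Complex.normSq_eq_norm_sq]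
    push_cast
    rfl
  have h4 : ∑ ξ ∈ win K, fc f ξ * (starRingEnd ℂ) (fc f ξ)
      = ((∑ ξ ∈ win K, ‖fc f ξ‖ ^ 2 : ℝ) : ℂ) := by
    push_cast
    refine Finset.sum_congr rfl fun x _ => ?_
    rw [Complex.mul_conj, Complex.normSq_eq_norm_sq]
    push_cast
    rfl
  rw [h3, h4] at h1
  exact_mod_cast h1

/-- Fourier coefficients of a trigonometric sum over the window -/
theorem fc_sum (a : ℤ → ℂ) {ξ : ℤ} (hξ : ξ ∈ win K) :
    fc (fun x : X K => ∑ η ∈ win K, a η * ch η x) ξ = a ξ := by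
  unfold fc
  have h1 : ∀ x : X K, (∑ η ∈ win K, a η * ch η x) * ch (-ξ) x
      = ∑ η ∈ win K, a η * (ch η x * (starRingEnd ℂ) (ch ξ x)) := by
    intro x
    rw [Finset.sum_mul]
    refine Finset.sum_congr rfl fun η _ => ?_
    rw [conj_ch]
    ring
  simp_rw [h1]
  rw [aveC_sum]
  have h2 : ∀ η ∈ win K, aveC (fun x : X K => a η * (ch η x * (starRingEnd ℂ) (ch ξ x)))
      = if η = ξ then a η else 0 := by
    intro η hη
    rw [aveC_mul_left, fou4 K η ξ hη hξ]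
    by_cases h : η = ξ
    · rw [if_pos h, if_pos h, mul_one]
    · rw [if_neg h, if_neg h, mul_zero]
  rw [Finset.sum_congr rfl h2, Finset.sum_ite_eq', if_pos hξ]

/-- composition of multipliers -/
theorem mul_mul (m m' : ℤ → ℂ) (f : X K → ℂ) (x : X K) :
    mul m (mul m' f) x = mul (fun ξ => m ξ * m' ξ) f x := by
  have h : mul m' f = fun x : X K => ∑ ξ ∈ win K, (m' ξ * fc f ξ) * ch ξ x := rfl
  unfold mul
  refine Finset.sum_congr rfl fun ξ hξ => ?_
  have h2 : fc (fun x : X K => ∑ ξ ∈ win K, m' ξ * fc f ξ * ch ξ x) ξ = m' ξ * fc f ξ :=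
    fc_sum _ hξ
  rw [h2]
  ring

theorem mul_congr {m m' : ℤ → ℂ} {f : X K → ℂ}
    (h : ∀ ξ ∈ win K, fc f ξ = 0 ∨ m ξ = m' ξ) (x : X K) : mul m f x = mul m' f x := by
  unfold mul
  refine Finset.sum_congr rfl fun ξ hξ => ?_
  rcases h ξ hξ with h | h
  · rw [h]; ring
  · rw [h]

theorem mul_add (m m' : ℤ → ℂ) (f : X K → ℂ) (x : X K) :
    mul (fun ξ => m ξ + m' ξ) f x = mul m f x + mul m' f x := by
  unfold mul
  rw [← Finset.sum_add_distrib]
  exact Finset.sum_congr rfl fun ξ _ => by ring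

theorem mul_sub (m m' : ℤ → ℂ) (f : X K → ℂ) (x : X K) :
    mul (fun ξ => m ξ - m' ξ) f x = mul m f x - mul m' f x := by
  unfold mul
  rw [← Finset.sum_sub_distrib]
  exact Finset.sum_congr rfl fun ξ _ => by ring

theorem mul_sum {ι : Type*} (s : Finset ι) (m : ι → ℤ → ℂ) (f : X K → ℂ) (x : X K) :
    mul (fun ξ => ∑ i ∈ s, m i ξ) f x = ∑ i ∈ s, mul (m i) f x := by
  unfold mul
  rw [Finset.sum_comm]
  refine Finset.sum_congr rfl fun ξ _ => ?_
  rw [Finset.sum_mul, Finset.sum_mul]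

/-- pointwise bound of a multiplier operator by its kernel -/
theorem norm_mul_le (m : ℤ → ℂ) (f : X K → ℂ) (x : X K) :
    ‖mul m f x‖ ≤ ave (fun y => ‖f y‖ * ‖ker m (x - y)‖) := by
  rw [fou1 K m f x]
  unfold aveC ave
  rw [norm_div, norm_pow, Complex.norm_two]
  gcongr
  refine (norm_sum_le _ _).trans (le_of_eq ?_)
  exact Finset.sum_congr rfl fun y _ => norm_mul _ _

theorem norm_fc_le (f : X K → ℂ) (ξ : ℤ) : ‖fc f ξ‖ ≤ ave (fun y => ‖f y‖) := by
  unfold fc aveC ave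
  rw [norm_div, norm_pow, Complex.norm_two]
  gcongr
  refine (norm_sum_le _ _).trans (le_of_eq ?_)
  exact Finset.sum_congr rfl fun y _ => by rw [norm_mul, norm_ch, mul_one]

end Vale.Agent.P091.CH.H847
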