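import Vale.Agent.P091.CH.H847.Trunc
import Vale.Agent.P091.CH.H420.Sym

/-!
# Carleson-Hunt on the finite grid: the kernel of the smooth step (row S3 of OUT-SWITCH)

`ker (th κ l) t * (1 - ch 1 t) = 1 - ch N t * phi t` with `|phi t - 1| ≤ A 2^κ |t|` and
`|phi t| ≤ A (1 + 2^κ |t|)^-2`, `l = N / 2^κ`.
-/

open Finset

namespace Vale.Agent.P091.CH.H847

open Vale.Agent.P091.CH

variable {K : ℕ}

/-- the two symbol families coincide -/
theorem stp_eq_th (k : ℕ) (l : ℤ) : H420.stp k l = th k l := by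
  funext ξ
  unfold H420.stp H420.aff th G
  have h : (((l - 3 : ℤ) : ℝ)) + -((2:ℝ) ^ k)⁻¹ * (ξ:ℝ)
      = (l:ℝ) - 3 + (ξ:ℝ) * (-((2:ℝ) ^ k)⁻¹) := by
    push_cast
    ring
  rw [h]

/-- the smooth cut-off of the kernel -/
noncomputable def phi (κ : ℕ) (N : ℤ) (t : X K) : ℂ :=
  -(ch (1 - N) t * S (D (th κ (N / 2 ^ κ))) t)

theorem phi_decay (κ : ℕ) (N : ℤ) (t : X K) :
    ‖phi κ N t‖ ≤ 24 * B0 * (1 + 2 ^ κ * nrm t)⁻¹ ^ 2 := by
  unfold phi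
  rw [norm_neg, norm_mul, norm_ch, one_mul]
  exact S_D_thk_le κ _ t

theorem sum_D_Ico (g : ℤ → ℂ) (a : ℤ) (n : ℕ) :
    ∑ ξ ∈ Ico a (a + n), D g ξ = g (a + n) - g a := by
  induction n with
  | zero => simp
  | succ n ih =>
    have h : Ico a (a + (n + 1 : ℕ)) = insert (a + (n:ℤ)) (Ico a (a + n)) := by
      ext ξ
      rw [Finset.mem_insert, Finset.mem_Ico, Finset.mem_Ico]
      push_cast
      omega
    rw [h, Finset.sum_insert (by rw [Finset.mem_Ico]; omega), ih, D_apply]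
    push_cast
    rw [add_assoc]
    ring

theorem phi_near (κ : ℕ) (N : ℤ) (t : X K) :
    ‖phi κ N t - 1‖ ≤ 24 * Real.pi * B0 * (2 ^ κ * nrm t) := by
  have hB := B0_one
  have hpi := Real.pi_pos
  have hn := nrm_nonneg t
  have h1z : (1:ℤ) ≤ 2 ^ κ := one_le_pow₀ (by norm_num)
  have h1R : (1:ℝ) ≤ 2 ^ κ := one_le_pow₀ (by norm_num)
  have hb := div_bounds κ N
  set l : ℤ := N / 2 ^ κ with hl
  -- the total mass
  have hlen : (l - 4) * 2 ^ κ - 1 + ((2 ^ κ + 1 : ℕ) : ℤ) = (l - 3) * 2 ^ κ := by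
    push_cast
    ring
  have hmass : ∑ ξ ∈ Ico ((l - 4) * 2 ^ κ - 1) ((l - 3) * 2 ^ κ), D (th κ l) ξ = -1 := by
    rw [← hlen, sum_D_Ico, hlen, thk_zero le_rfl, thk_one (by linarith)]
    ring
  have hphi : phi κ N t - 1 = -∑ ξ ∈ Ico ((l - 4) * 2 ^ κ - 1) ((l - 3) * 2 ^ κ),
      D (th κ l) ξ * (ch (ξ + 1 - N) t - 1) := by
    unfold phi
    rw [← hl, S_eq_sum (D_thk_supp κ l), Finset.mul_sum]
    have h2 : ∀ ξ : ℤ, D (th κ l) ξ * (ch (ξ + 1 - N) t - 1)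
        = ch (1 - N) t * (D (th κ l) ξ * ch ξ t) - D (th κ l) ξ := by
      intro ξ
      have h3 : ξ + 1 - N = (1 - N) + ξ := by ring
      rw [h3, ch_add]
      ring
    simp_rw [h2]
    rw [Finset.sum_sub_distrib, hmass]
    ring
  rw [hphi, norm_neg]
  refine (norm_sum_le _ _).trans ?_
  have hterm : ∀ ξ ∈ Ico ((l - 4) * 2 ^ κ - 1) ((l - 3) * 2 ^ κ),
      ‖D (th κ l) ξ * (ch (ξ + 1 - N) t - 1)‖
        ≤ (B0 * ((2:ℝ) ^ κ)⁻¹) * (2 * Real.pi * (6 * 2 ^ κ * nrm t)) := by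
    intro ξ hξ
    rw [Finset.mem_Ico] at hξ
    rw [norm_mul]
    have h3 : ‖D (th κ l) ξ‖ ≤ B0 * ((2:ℝ) ^ κ)⁻¹ := by
      simpa using th_diff κ l (i := 1) (by norm_num) ξ
    have h4 : |((ξ + 1 - N : ℤ) : ℝ)| ≤ 6 * 2 ^ κ := by
      have h5 : |ξ + 1 - N| ≤ 6 * 2 ^ κ := by
        rw [abs_le]
        constructor <;> nlinarith [hξ.1, hξ.2, hb.1, hb.2]
      have h6 : ((|ξ + 1 - N| : ℤ) : ℝ) ≤ ((6 * 2 ^ κ : ℤ) : ℝ) := by exact_mod_cast h5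
      push_cast at h6
      push_cast
      exact h6
    have h7 : ‖ch (ξ + 1 - N) t - 1‖ ≤ 2 * Real.pi * (6 * 2 ^ κ * nrm t) := by
      refine (ch_sub_one_le _ _).trans ?_
      gcongr
    gcongr
  refine (Finset.sum_le_card_nsmul _ _ _ hterm).trans ?_
  rw [Int.card_Ico, nsmul_eq_mul]
  have hcard : ((((l - 3) * 2 ^ κ - ((l - 4) * 2 ^ κ - 1)).toNat : ℕ) : ℝ) ≤ 2 * 2 ^ κ := by
    have h3 : (l - 3) * 2 ^ κ - ((l - 4) * 2 ^ κ - 1) = ((2 ^ κ + 1 : ℕ) : ℤ) := by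
      push_cast
      ring
    rw [h3, Int.toNat_natCast]
    push_cast
    linarith
  calc ((((l - 3) * 2 ^ κ - ((l - 4) * 2 ^ κ - 1)).toNat : ℕ) : ℝ)
        * ((B0 * ((2:ℝ) ^ κ)⁻¹) * (2 * Real.pi * (6 * 2 ^ κ * nrm t)))
      ≤ (2 * 2 ^ κ) * ((B0 * ((2:ℝ) ^ κ)⁻¹) * (2 * Real.pi * (6 * 2 ^ κ * nrm t))) := by gcongr
    _ = 24 * Real.pi * B0 * (2 ^ κ * nrm t) := by
        field_simp
        ring

/-- the kernel identity -/
theorem ker_th {κ : ℕ} {N : ℤ} (h0 : 4 * 2 ^ κ ≤ N) (h1 : N ≤ 2 ^ K) (t : X K) :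
    ker (th κ (N / 2 ^ κ)) t * (1 - ch 1 t) = 1 - ch N t * phi κ N t := by
  have h1z : (1:ℤ) ≤ 2 ^ κ := one_le_pow₀ (by norm_num)
  have hb := div_bounds κ N
  set l : ℤ := N / 2 ^ κ with hl
  have hl4 : 4 ≤ l := by
    rw [hl, Int.le_ediv_iff_mul_le (by positivity)]
    exact h0
  -- cut at zero
  set m : ℤ → ℂ := fun ξ => if 0 ≤ ξ then th κ l ξ else 0 with hm
  have hmsupp : ∀ ξ, ξ < 0 ∨ (l - 3) * 2 ^ κ ≤ ξ → m ξ = 0 := by
    intro ξ hξ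
    rw [hm]
    simp only
    rcases hξ with h | h
    · rw [if_neg (by linarith)]
    · split_ifs
      · exact thk_zero h
      · rfl
  have hker : ker (th κ l) t = ker m t := by
    unfold ker
    refine Finset.sum_congr rfl fun ξ hξ => ?_
    unfold win at hξ
    rw [Finset.mem_Ico] at hξ
    rw [hm]
    simp only
    rw [if_pos hξ.1]
  rw [hker, ker_eq_S le_rfl (by nlinarith) hmsupp]
  have hD : D m = fun ξ => D (th κ l) ξ - (if ξ = -1 then (-1:ℂ) else 0) := by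
    funext ξ
    rw [D_apply, D_apply, hm]
    simp only
    by_cases hc : ξ = -1
    · rw [hc, if_pos rfl]
      have e1 : (-1:ℤ) + 1 = 0 := by norm_num
      rw [e1, if_pos le_rfl, if_neg (by norm_num), thk_one (ξ := -1) (by nlinarith)]
      ring
    · rw [if_neg hc]
      by_cases hp : 0 ≤ ξ
      · rw [if_pos hp, if_pos (by linarith)]
        ring
      · have hlt : ξ < -1 := by omega
        rw [if_neg hp, if_neg (by linarith), thk_one (by nlinarith), thk_one (by nlinarith)]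
        ring
  have hδ : ∀ ξ : ℤ, ξ < -1 ∨ 0 ≤ ξ → (if ξ = -1 then (-1:ℂ) else 0) = 0 := by
    intro ξ hξ
    rw [if_neg]
    intro hc
    rcases hξ with h | h <;> omega
  have hS := S_D hmsupp t
  rw [hD, S_sub (D_thk_supp κ l) hδ] at hS
  have hSδ : S (fun ξ : ℤ => if ξ = -1 then (-1:ℂ) else 0) t = -ch (-1) t := by
    rw [S_eq_sum hδ]
    have h2 : Ico (-1:ℤ) 0 = {-1} := by
      ext ξ
      rw [Finset.mem_Ico, Finset.mem_singleton]
      omega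
    rw [h2, Finset.sum_singleton, if_pos rfl]
    ring
  rw [hSδ] at hS
  have hcc : ch N t * ch (1 - N) t = ch 1 t := by
    rw [← ch_add]
    congr 1
    ring
  have hc1 := ch_mul_neg 1 t
  unfold phi
  rw [← hl]
  have hR : ch N t * -(ch (1 - N) t * S (D (th κ l)) t) = -(ch 1 t * S (D (th κ l)) t) := by
    rw [← hcc]
    ring
  rw [hR]
  linear_combination (ch 1 t) * (-hS) + (1 - S m t) * hc1

/-- ROW S3 of OUT-SWITCH, literally (with `H420.stp`) -/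
theorem row_S3 : ∃ A : ℝ, ∀ (K κ : ℕ) (N1 : ℤ), κ + 4 ≤ K → 0 ≤ N1 → N1 < 2 ^ K →
    4 * 2 ^ κ ≤ N1 → ∃ φ : X K → ℂ,
      (∀ t, ‖φ t - 1‖ ≤ A * (2 ^ κ * nrm t)) ∧
      (∀ t, ‖φ t‖ ≤ A * (1 + 2 ^ κ * nrm t)⁻¹ ^ 2) ∧
      (∀ t, ker (H420.stp κ (N1 / 2 ^ κ)) t * (1 - ch 1 t) = 1 - ch N1 t * φ t) := by
  have hB := B0_one
  have hpi := Real.pi_gt_three
  refine ⟨24 * Real.pi * B0, ?_⟩
  intro K κ N1 _ _ h1 h0
  refine ⟨phi κ N1, phi_near κ N1, ?_, ?_⟩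
  · intro t
    refine (phi_decay κ N1 t).trans ?_
    have hn := nrm_nonneg t
    gcongr
    nlinarith
  · intro t
    rw [stp_eq_th]
    exact ker_th h0 h1.le t

end Vale.Agent.P091.CH.H847
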