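import Vale.Agent.P091.CH.H847.Ker

/-!
# Carleson-Hunt on the finite grid: sampling and decaying averages
-/

open Finset

namespace Vale.Agent.P091.CH.H847

open Vale.Agent.P091.CH

variable {K : ℕ}

/-! ## sampling on the grid of `8 * 2^k` points -/

theorem ch_nsmul (ξ : ℤ) (n : ℕ) (x : X K) : ch ξ (n • x) = ch ξ x ^ n := by
  unfold ch
  rw [mul_smul_comm, AddChar.map_nsmul_eq_pow]

theorem pt_eq {k : ℕ} (hk : k + 3 ≤ K) (j r : ℕ) :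
    pt K k j r = (8 * j + r) • ((2 ^ (K - k - 3) : ℕ) : X K) := by
  unfold pt
  have h : 2 ^ (K - k) = 8 * 2 ^ (K - k - 3) := by
    have h1 : K - k = (K - k - 3) + 3 := by omega
    rw [h1, pow_add]
    norm_num
    ring
  rw [nsmul_eq_mul, ← Nat.cast_mul, h]
  congr 1
  ring

theorem sum_pt {k : ℕ} (hk : k + 3 ≤ K) (ζ : ℤ) :
    ∑ r ∈ range 8, ∑ j ∈ range (2 ^ k), ch ζ (pt K k j r)
      = if (2 ^ (k + 3) : ℤ) ∣ ζ then (2 : ℂ) ^ (k + 3) else 0 := by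
  set w : X K := ((2 ^ (K - k - 3) : ℕ) : X K) with hw
  set z : ℂ := ch ζ w with hz
  have h1 : ∀ r j : ℕ, ch ζ (pt K k j r) = z ^ r * (z ^ 8) ^ j := by
    intro r j
    rw [pt_eq hk, ch_nsmul, ← pow_mul, ← pow_add, add_comm r]
  simp_rw [h1]
  simp_rw [← Finset.mul_sum]
  rw [← Finset.sum_mul]
  have hpow : z ^ (2 ^ (k + 3)) = 1 := by
    rw [hz, ← ch_nsmul, hw, nsmul_eq_mul, ← Nat.cast_mul, ← pow_add]
    have h2 : k + 3 + (K - k - 3) = K := by omega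
    rw [h2, ZMod.natCast_self, ch_zero']
  by_cases hd : (2 ^ (k + 3) : ℤ) ∣ ζ
  · rw [if_pos hd]
    have hz1 : z = 1 := by
      obtain ⟨q, hq⟩ := hd
      rw [hz, hq, hw]
      unfold ch
      have h3 : (((2 ^ (k + 3) * q : ℤ)) : ZMod (2 ^ K)) * ((2 ^ (K - k - 3) : ℕ) : X K) = 0 := by
        have h4 : (((2 ^ (k + 3) * q : ℤ)) : ZMod (2 ^ K)) * ((2 ^ (K - k - 3) : ℕ) : X K)
            = ((2 ^ K : ℕ) : ZMod (2 ^ K)) * (q : ZMod (2 ^ K)) := by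
          have h5 : (2 ^ K : ℕ) = 2 ^ (k + 3) * 2 ^ (K - k - 3) := by
            rw [← pow_add]
            congr 1
            omega
          have h6 : ((2 ^ K : ℕ) : ZMod (2 ^ K)) = ((2 ^ (k + 3) * 2 ^ (K - k - 3) : ℕ) : ZMod (2 ^ K)) :=
            congrArg _ h5
          rw [h6]
          push_cast
          ring
        rw [h4, ZMod.natCast_self, zero_mul]
      rw [h3, AddChar.map_zero_eq_one]
    rw [hz1]
    simp only [one_pow, Finset.sum_const, Finset.card_range, nsmul_eq_mul, mul_one]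
    push_cast
    rw [pow_add]
    ring
  · rw [if_neg hd]
    have hz1 : z ≠ 1 := by
      intro h3
      apply hd
      have h4 : ZMod.stdAddChar ((ζ : ZMod (2 ^ K)) * w) = ZMod.stdAddChar (0 : ZMod (2 ^ K)) := by
        rw [AddChar.map_zero_eq_one]
        exact h3
      have h5 := ZMod.injective_stdAddChar h4
      have h6 : ((ζ * 2 ^ (K - k - 3) : ℤ) : ZMod (2 ^ K)) = 0 := by
        rw [← h5, hw]
        push_cast
        ring
      rw [cast_eq_zero_iff] at h6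
      have h7 : (2 ^ K : ℤ) = 2 ^ (k + 3) * 2 ^ (K - k - 3) := by
        rw [← pow_add]
        congr 1
        omega
      rw [h7] at h6
      exact (mul_dvd_mul_iff_right (by positivity)).1 h6
    have h8 : (∑ i ∈ range 8, z ^ i) * (z - 1) = z ^ 8 - 1 := geom_sum_mul z 8
    have h9 : (∑ i ∈ range (2 ^ k), (z ^ 8) ^ i) * (z ^ 8 - 1) = (z ^ 8) ^ (2 ^ k) - 1 :=
      geom_sum_mul (z ^ 8) (2 ^ k)
    have h10 : (z ^ 8) ^ (2 ^ k) = 1 := by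
      rw [← pow_mul]
      have : 8 * 2 ^ k = 2 ^ (k + 3) := by
        rw [pow_add]
        ring
      rw [this, hpow]
    rw [h10, sub_self, ← h8] at h9
    have h11 : ((∑ i ∈ range 8, z ^ i) * ∑ i ∈ range (2 ^ k), (z ^ 8) ^ i) * (z - 1) = 0 := by
      rw [← h9]
      ring
    rcases mul_eq_zero.1 h11 with h | h
    · exact h
    · exact absurd (sub_eq_zero.1 h) hz1

/-- exact sampling formula -/
theorem sampling {k : ℕ} (hk : k + 3 ≤ K) {g h : ℤ → ℂ} (a : ℤ)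
    (hg : ∀ ξ, ξ < a ∨ a + 2 ^ (k + 3) ≤ ξ → g ξ = 0)
    (hh : ∀ ξ, ξ < a ∨ a + 2 ^ (k + 3) ≤ ξ → h ξ = 0) (f : X K → ℂ) (x : X K) :
    ∑ r ∈ range 8, ∑ j ∈ range (2 ^ k), mul g f (pt K k j r) * ker h (x - pt K k j r)
      = 2 ^ (k + 3) * mul (fun ξ => g ξ * h ξ) f x := by
  have h1 : ∀ p : X K, mul g f p * ker h (x - p)
      = ∑ ξ ∈ win K, ∑ η ∈ win K, (g ξ * fc f ξ * (h η * ch η x)) * ch (ξ - η) p := by
    intro p
    unfold mul ker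
    rw [Finset.sum_mul_sum]
    refine Finset.sum_congr rfl fun ξ _ => Finset.sum_congr rfl fun η _ => ?_
    rw [ch_sub', sub_eq_add_neg, ch_add]
    ring
  simp_rw [h1]
  have h2 : ∑ r ∈ range 8, ∑ j ∈ range (2 ^ k), ∑ ξ ∈ win K, ∑ η ∈ win K,
        (g ξ * fc f ξ * (h η * ch η x)) * ch (ξ - η) (pt K k j r)
      = ∑ ξ ∈ win K, ∑ η ∈ win K, (g ξ * fc f ξ * (h η * ch η x)) *
          ∑ r ∈ range 8, ∑ j ∈ range (2 ^ k), ch (ξ - η) (pt K k j r) := by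
    simp_rw [Finset.mul_sum]
    have h3 : ∀ r ∈ range 8, ∑ j ∈ range (2 ^ k), ∑ ξ ∈ win K, ∑ η ∈ win K,
        (g ξ * fc f ξ * (h η * ch η x)) * ch (ξ - η) (pt K k j r)
        = ∑ ξ ∈ win K, ∑ η ∈ win K, ∑ j ∈ range (2 ^ k),
        (g ξ * fc f ξ * (h η * ch η x)) * ch (ξ - η) (pt K k j r) := by
      intro r _
      rw [Finset.sum_comm]
      refine Finset.sum_congr rfl fun ξ _ => ?_
      rw [Finset.sum_comm]
    rw [Finset.sum_congr rfl h3, Finset.sum_comm]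
    refine Finset.sum_congr rfl fun ξ _ => ?_
    rw [Finset.sum_comm]
  rw [h2]
  simp_rw [sum_pt hk]
  unfold mul
  rw [Finset.mul_sum]
  refine Finset.sum_congr rfl fun ξ hξ => ?_
  rw [Finset.sum_eq_single ξ]
  · rw [sub_self, if_pos (dvd_zero _)]
    ring
  · intro η _ hne
    by_cases hgz : ξ < a ∨ a + 2 ^ (k + 3) ≤ ξ
    · rw [hg ξ hgz]
      ring
    by_cases hhz : η < a ∨ a + 2 ^ (k + 3) ≤ η
    · rw [hh η hhz]
      ring
    push Not at hgz hhz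
    rw [if_neg, mul_zero]
    intro hd
    apply hne
    have h4 : |ξ - η| < 2 ^ (k + 3) := by
      rw [abs_lt]
      constructor <;> linarith [hgz.1, hgz.2, hhz.1, hhz.2]
    have h5 := Int.eq_zero_of_abs_lt_dvd hd h4
    linarith
  · intro h
    exact absurd hξ h

/-! ## decaying averages -/

theorem wt_le_balls (k : ℕ) (r : ℝ) (hr0 : 0 ≤ r) (hr : r ≤ 1) :
    (1 + 2 ^ k * r)⁻¹ ^ 2 ≤ ∑ κ ∈ range (k + 1), (4 * (((4:ℝ) ^ (k - κ))⁻¹)) *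
      (if r ≤ ((2:ℝ) ^ κ)⁻¹ then 1 else 0) := by
  classical
  set κ := Nat.findGreatest (fun κ => r ≤ ((2:ℝ) ^ κ)⁻¹) k with hκ
  have h1 : r ≤ ((2:ℝ) ^ κ)⁻¹ :=
    Nat.findGreatest_spec (P := fun κ => r ≤ ((2:ℝ) ^ κ)⁻¹) (Nat.zero_le k) (by simpa using hr)
  have h2 : κ ≤ k := Nat.findGreatest_le k
  have h3 : (4 * (((4:ℝ) ^ (k - κ))⁻¹)) * (if r ≤ ((2:ℝ) ^ κ)⁻¹ then 1 else 0)
      ≤ ∑ κ ∈ range (k + 1), (4 * (((4:ℝ) ^ (k - κ))⁻¹)) *
      (if r ≤ ((2:ℝ) ^ κ)⁻¹ then 1 else 0) := by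
    refine Finset.single_le_sum (f := fun κ => (4 * (((4:ℝ) ^ (k - κ))⁻¹)) *
      (if r ≤ ((2:ℝ) ^ κ)⁻¹ then (1:ℝ) else 0)) ?_ (Finset.mem_range.2 (by omega))
    intro i _
    have : (0:ℝ) ≤ (if r ≤ ((2:ℝ) ^ i)⁻¹ then (1:ℝ) else 0) := by split_ifs <;> norm_num
    positivity
  refine le_trans ?_ h3
  rw [if_pos h1, mul_one]
  rcases Nat.eq_or_lt_of_le h2 with h4 | h4
  · rw [h4, Nat.sub_self, pow_zero, inv_one, mul_one]
    have h5 : (1 + 2 ^ k * r)⁻¹ ≤ 1 := by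
      apply inv_le_one_of_one_le₀
      have : 0 ≤ 2 ^ k * r := by positivity
      linarith
    have h6 : 0 ≤ (1 + 2 ^ k * r)⁻¹ := by positivity
    nlinarith
  · have h5 : ¬ (r ≤ ((2:ℝ) ^ (κ + 1))⁻¹) :=
      Nat.findGreatest_is_greatest (P := fun κ => r ≤ ((2:ℝ) ^ κ)⁻¹) (Nat.lt_succ_self κ) h4
    push Not at h5
    have h6 : (2:ℝ) ^ (k - κ) ≤ 2 * (1 + 2 ^ k * r) := by
      have h7 : (2:ℝ) ^ k * ((2:ℝ) ^ (κ + 1))⁻¹ ≤ 2 ^ k * r := by gcongr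
      have h8 : (2:ℝ) ^ k * ((2:ℝ) ^ (κ + 1))⁻¹ = 2 ^ (k - κ) / 2 := by
        have h9 : k = (k - κ) + κ := by omega
        have h10 : (2:ℝ) ^ k = 2 ^ (k - κ) * 2 ^ κ := by
          rw [← pow_add, ← h9]
        rw [h10, pow_succ]
        field_simp
      linarith
    have h7 : (4:ℝ) ^ (k - κ) = (2 ^ (k - κ)) ^ 2 := by
      rw [← pow_mul, mul_comm, pow_mul]
      norm_num
    rw [h7, inv_pow]
    have h8 : (0:ℝ) < 2 ^ (k - κ) := by positivity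
    rw [inv_le_iff_one_le_mul₀ (by positivity), ← div_eq_mul_inv, div_mul_eq_mul_div,
      one_le_div₀ (by positivity)]
    have h9 : (2:ℝ) ^ (k - κ) * 2 ^ (k - κ) ≤ (2 * (1 + 2 ^ k * r)) * (2 * (1 + 2 ^ k * r)) := by
      gcongr
    nlinarith

theorem ave_nonneg {g : X K → ℝ} (h : ∀ x, 0 ≤ g x) : 0 ≤ ave g := by
  unfold ave
  exact div_nonneg (Finset.sum_nonneg fun x _ => h x) (by positivity)

theorem ave_mono {g g' : X K → ℝ} (h : ∀ x, g x ≤ g' x) : ave g ≤ ave g' := by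
  unfold ave
  gcongr with x _
  exact h x

theorem ave_mul_left (c : ℝ) (g : X K → ℝ) : ave (fun x => c * g x) = c * ave g := by
  unfold ave
  rw [← Finset.mul_sum]
  ring

theorem ave_sum {ι : Type*} (s : Finset ι) (g : ι → X K → ℝ) :
    ave (fun x => ∑ i ∈ s, g i x) = ∑ i ∈ s, ave (g i) := by
  unfold ave
  rw [Finset.sum_comm, Finset.sum_div]

theorem ball_le_MX (f : X K → ℝ) (x : X K) {κ : ℕ} (hκ : κ ≤ K) :
    2 ^ κ * ave (fun y => if nrm (x - y) ≤ ((2:ℝ) ^ κ)⁻¹ then |f y| else 0) ≤ MX f x := by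
  unfold MX
  exact Finset.le_sup' (f := fun κ => 2 ^ κ * ave (fun y => if nrm (x - y) ≤ ((2:ℝ) ^ κ)⁻¹
    then |f y| else 0)) (Finset.mem_range.2 (by omega))

theorem MX_nonneg (f : X K → ℝ) (x : X K) : 0 ≤ MX f x := by
  refine le_trans ?_ (ball_le_MX f x (Nat.zero_le K))
  refine mul_nonneg (by positivity) (ave_nonneg fun y => ?_)
  split_ifs
  · exact abs_nonneg _
  · exact le_rfl

theorem ave_le_MX (f : X K → ℝ) (x : X K) : ave (fun y => |f y|) ≤ MX f x := by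
  refine le_trans (le_of_eq ?_) (ball_le_MX f x (Nat.zero_le K))
  rw [pow_zero, one_mul]
  congr 1
  funext y
  rw [if_pos]
  have := nrm_le_half (x - y)
  simp only [inv_one]
  linarith

/-- decaying averages, centred at the point itself -/
theorem conv_le_MX {k : ℕ} (hk : k ≤ K) (f : X K → ℝ) (x : X K) :
    2 ^ k * ave (fun y => |f y| * (1 + 2 ^ k * nrm (x - y))⁻¹ ^ 2) ≤ 8 * MX f x := by
  have h1 : ave (fun y => |f y| * (1 + 2 ^ k * nrm (x - y))⁻¹ ^ 2)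
      ≤ ave (fun y => ∑ κ ∈ range (k + 1), (4 * (((4:ℝ) ^ (k - κ))⁻¹)) *
        (if nrm (x - y) ≤ ((2:ℝ) ^ κ)⁻¹ then |f y| else 0)) := by
    refine ave_mono fun y => ?_
    have h2 := wt_le_balls k (nrm (x - y)) (nrm_nonneg _) ((nrm_le_half _).trans (by norm_num))
    refine (mul_le_mul_of_nonneg_left h2 (abs_nonneg (f y))).trans (le_of_eq ?_)
    rw [Finset.mul_sum]
    refine Finset.sum_congr rfl fun κ _ => ?_
    split_ifs <;> ring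
  rw [ave_sum] at h1
  have h3 : ∀ κ ∈ range (k + 1), 2 ^ k * ave (fun y => (4 * (((4:ℝ) ^ (k - κ))⁻¹)) *
      (if nrm (x - y) ≤ ((2:ℝ) ^ κ)⁻¹ then |f y| else 0))
      ≤ 4 * (1 / 2) ^ (k - κ) * MX f x := by
    intro κ hκ
    rw [Finset.mem_range] at hκ
    rw [ave_mul_left]
    have h4 := ball_le_MX f x (κ := κ) (by omega)
    have h5 : (2:ℝ) ^ k = 2 ^ (k - κ) * 2 ^ κ := by
      rw [← pow_add]
      congr 1
      omega
    have h6 : (2:ℝ) ^ (k - κ) * ((4:ℝ) ^ (k - κ))⁻¹ = (1 / 2) ^ (k - κ) := by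
      rw [← inv_pow, ← mul_pow]
      norm_num
    calc 2 ^ k * (4 * ((4:ℝ) ^ (k - κ))⁻¹ *
          ave (fun y => if nrm (x - y) ≤ ((2:ℝ) ^ κ)⁻¹ then |f y| else 0))
        = 4 * (2 ^ (k - κ) * ((4:ℝ) ^ (k - κ))⁻¹) *
          (2 ^ κ * ave (fun y => if nrm (x - y) ≤ ((2:ℝ) ^ κ)⁻¹ then |f y| else 0)) := by
          rw [h5]; ring
      _ = 4 * (1 / 2) ^ (k - κ) *
          (2 ^ κ * ave (fun y => if nrm (x - y) ≤ ((2:ℝ) ^ κ)⁻¹ then |f y| else 0)) := by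
          rw [h6]
      _ ≤ 4 * (1 / 2) ^ (k - κ) * MX f x := by gcongr
  have h7 : ∑ κ ∈ range (k + 1), (4 * (1 / 2 : ℝ) ^ (k - κ) * MX f x) ≤ 8 * MX f x := by
    rw [← Finset.sum_mul, ← Finset.mul_sum]
    have h8 : ∑ κ ∈ range (k + 1), (1 / 2 : ℝ) ^ (k - κ) ≤ 2 := by
      have h9 := Finset.sum_range_reflect (fun i => (1 / 2 : ℝ) ^ i) (k + 1)
      have h10 : ∀ κ ∈ range (k + 1), (1 / 2 : ℝ) ^ (k + 1 - 1 - κ) = (1 / 2 : ℝ) ^ (k - κ) := by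
        intro κ _
        rfl
      rw [Finset.sum_congr rfl h10] at h9
      rw [h9]
      have h11 := sum_geometric_two_le (k + 1)
      simpa using h11
    have := MX_nonneg f x
    nlinarith
  calc 2 ^ k * ave (fun y => |f y| * (1 + 2 ^ k * nrm (x - y))⁻¹ ^ 2)
      ≤ 2 ^ k * ∑ κ ∈ range (k + 1), ave (fun y => (4 * (((4:ℝ) ^ (k - κ))⁻¹)) *
        (if nrm (x - y) ≤ ((2:ℝ) ^ κ)⁻¹ then |f y| else 0)) := by gcongr
    _ = ∑ κ ∈ range (k + 1), 2 ^ k * ave (fun y => (4 * (((4:ℝ) ^ (k - κ))⁻¹)) *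
        (if nrm (x - y) ≤ ((2:ℝ) ^ κ)⁻¹ then |f y| else 0)) := Finset.mul_sum _ _ _
    _ ≤ ∑ κ ∈ range (k + 1), (4 * (1 / 2 : ℝ) ^ (k - κ) * MX f x) := Finset.sum_le_sum h3
    _ ≤ 8 * MX f x := h7

/-- a multiplier with a decaying kernel is bounded by the maximal function -/
theorem mul_le_MX {k : ℕ} (hk : k ≤ K) {m : ℤ → ℂ} {C : ℝ} (hC : 0 ≤ C)
    (hm : ∀ x : X K, ‖ker m x‖ ≤ C * 2 ^ k * (1 + 2 ^ k * nrm x)⁻¹ ^ 2) (f : X K → ℂ) (x : X K) :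
    ‖mul m f x‖ ≤ 8 * C * MX (fun y => ‖f y‖) x := by
  refine (norm_mul_le m f x).trans ?_
  have h1 : ave (fun y => ‖f y‖ * ‖ker m (x - y)‖)
      ≤ ave (fun y => (C * 2 ^ k) * (|‖f y‖| * (1 + 2 ^ k * nrm (x - y))⁻¹ ^ 2)) := by
    refine ave_mono fun y => ?_
    rw [abs_norm]
    have := hm (x - y)
    calc ‖f y‖ * ‖ker m (x - y)‖
        ≤ ‖f y‖ * (C * 2 ^ k * (1 + 2 ^ k * nrm (x - y))⁻¹ ^ 2) := by gcongr
      _ = _ := by ring
  refine h1.trans ?_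
  rw [ave_mul_left]
  have h2 := conv_le_MX hk (fun y => ‖f y‖) x
  calc C * 2 ^ k * ave (fun y => |‖f y‖| * (1 + 2 ^ k * nrm (x - y))⁻¹ ^ 2)
      = C * (2 ^ k * ave (fun y => |‖f y‖| * (1 + 2 ^ k * nrm (x - y))⁻¹ ^ 2)) := by ring
    _ ≤ C * (8 * MX (fun y => ‖f y‖) x) := by gcongr
    _ = _ := by ring

end Vale.Agent.P091.CH.H847
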