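import Vale.Agent.P091.CH.H847.Disc

/-!
# Carleson-Hunt on the finite grid: the truncated tile sum is the truncated Hilbert kernel

`disc_trunc` writes the tile sum over the scales `k < κ` as the multiplier
`th 0 N - th κ (N / 2^κ)`.  Here: this multiplier operator is convolution with the sharply
truncated kernel `ch N t * 1_{2^-κ < |t|} / (1 - ch (-1) t)`, up to `C M f`.
-/

open Finset

namespace Vale.Agent.P091.CH.H847

open Vale.Agent.P091.CH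

variable {K : ℕ}

open Classical in
/-- the sharply truncated one-sided Dirichlet kernel -/
noncomputable def HK (κ : ℕ) (t : X K) : ℂ :=
  if nrm t ≤ ((2:ℝ) ^ κ)⁻¹ then 0 else 1 / (1 - ch (-1) t)

/-- the multiplier of the tile sum over the scales `k < κ` -/
noncomputable def mt (κ : ℕ) (N ξ : ℤ) : ℂ := th 0 N ξ - th κ (N / 2 ^ κ) ξ

theorem norm_th_le (k : ℕ) (l ξ : ℤ) : ‖th k l ξ‖ ≤ 1 := norm_G_le _

theorem th0_one {N ξ : ℤ} (h : ξ ≤ N - 4) : th 0 N ξ = 1 := by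
  apply th_one
  have h5 : (ξ:ℝ) ≤ N - 4 := by exact_mod_cast h
  simp only [pow_zero, inv_one, mul_one]
  linarith

theorem th0_zero {N ξ : ℤ} (h : N - 3 ≤ ξ) : th 0 N ξ = 0 := by
  apply th_zero
  have h5 : (N:ℝ) - 3 ≤ ξ := by exact_mod_cast h
  simp only [pow_zero, inv_one, mul_one]
  linarith

theorem thk_one {κ : ℕ} {l ξ : ℤ} (h : ξ < (l - 4) * 2 ^ κ) : th κ l ξ = 1 := by
  apply th_one
  have := t_gt h
  push_cast at this
  linarith

theorem thk_zero {κ : ℕ} {l ξ : ℤ} (h : (l - 3) * 2 ^ κ ≤ ξ) : th κ l ξ = 0 := by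
  apply th_zero
  have := t_le h
  push_cast at this
  exact this

theorem div_bounds (κ : ℕ) (N : ℤ) : N / 2 ^ κ * 2 ^ κ ≤ N ∧ N < N / 2 ^ κ * 2 ^ κ + 2 ^ κ := by
  have h0 : (0:ℤ) < 2 ^ κ := by positivity
  refine ⟨Int.ediv_mul_le N (ne_of_gt h0), ?_⟩
  have := Int.lt_ediv_add_one_mul_self N h0
  linarith

theorem mt_supp (κ : ℕ) (N : ℤ) :
    ∀ ξ, ξ < (N / 2 ^ κ - 4) * 2 ^ κ ∨ N - 3 ≤ ξ → mt κ N ξ = 0 := by
  intro ξ hξ
  have hb := div_bounds κ N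
  have h1 : (1:ℤ) ≤ 2 ^ κ := one_le_pow₀ (by norm_num)
  unfold mt
  rcases hξ with h | h
  · rw [thk_one h, th0_one, sub_self]
    nlinarith
  · rw [th0_zero h, thk_zero, sub_self]
    nlinarith

theorem norm_mt_le (κ : ℕ) (N ξ : ℤ) : ‖mt κ N ξ‖ ≤ 2 := by
  unfold mt
  refine (norm_sub_le _ _).trans ?_
  have h1 := norm_th_le 0 N ξ
  have h2 := norm_th_le κ (N / 2 ^ κ) ξ
  linarith

theorem D_thk_supp (κ : ℕ) (l : ℤ) :
    ∀ ξ, ξ < (l - 4) * 2 ^ κ - 1 ∨ (l - 3) * 2 ^ κ ≤ ξ → D (th κ l) ξ = 0 := by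
  intro ξ hξ
  rw [D_apply]
  rcases hξ with h | h
  · rw [thk_one (by linarith), thk_one (by linarith), sub_self]
  · rw [thk_zero (by linarith), thk_zero h, sub_self]

theorem D_th0_supp (N : ℤ) : ∀ ξ, ξ < N - 4 ∨ N - 3 ≤ ξ → D (th 0 N) ξ = 0 := by
  intro ξ hξ
  rw [D_apply]
  rcases hξ with h | h
  · rw [th0_one (by linarith), th0_one (by linarith), sub_self]
  · rw [th0_zero (by linarith), th0_zero h, sub_self]

theorem S_D_th0 (N : ℤ) (t : X K) : S (D (th 0 N)) t = -ch (N - 4) t := by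
  rw [S_eq_sum (D_th0_supp N)]
  have h1 : Ico (N - 4) (N - 3) = {N - 4} := by
    ext ξ
    rw [Finset.mem_Ico, Finset.mem_singleton]
    omega
  rw [h1, Finset.sum_singleton, D_apply, th0_zero (by linarith), th0_one (by linarith)]
  ring

theorem S_sub {g h : ℤ → ℂ} {a b a' b' : ℤ} (hg : ∀ ξ, ξ < a ∨ b ≤ ξ → g ξ = 0)
    (hh : ∀ ξ, ξ < a' ∨ b' ≤ ξ → h ξ = 0) (t : X K) :
    S (fun ξ => g ξ - h ξ) t = S g t - S h t := by
  unfold S
  have h1 : ∀ ξ : ℤ, (g ξ - h ξ) * ch ξ t = g ξ * ch ξ t - h ξ * ch ξ t := by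
    intro ξ
    ring
  simp_rw [h1]
  exact finsum_sub_distrib (supp_fin hg _) (supp_fin hh _)

/-- the Fourier transform of the derivative of the smooth step -/
theorem S_D_thk_le (κ : ℕ) (l : ℤ) (t : X K) :
    ‖S (D (th κ l)) t‖ ≤ 24 * B0 * (1 + 2 ^ κ * nrm t)⁻¹ ^ 2 := by
  have hB := B0_one
  have h1 : (1:ℤ) ≤ 2 ^ κ := one_le_pow₀ (by norm_num)
  have h1R : (1:ℝ) ≤ 2 ^ κ := one_le_pow₀ (by norm_num)
  have h2 : (0:ℝ) < 2 ^ κ := by positivity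
  have h := S_decay (K := K) 2 (g := D (th κ l)) (a := (l - 4) * 2 ^ κ - 1) (b := (l - 3) * 2 ^ κ)
    (by nlinarith) (D_thk_supp κ l) (M := B0 * ((2:ℝ) ^ κ)⁻¹) (h := ((2:ℝ) ^ κ)⁻¹) (R := 2)
    (by positivity) (by positivity) (inv_le_one_of_one_le₀ h1R)
    (by
      rw [div_inv_eq_mul]
      push_cast
      linarith)
    (fun ξ => by simpa using th_diff κ l (i := 1) (by norm_num) ξ)
    (fun ξ => by
      have := th_diff κ l (i := 3) (by norm_num) ξ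
      rw [Function.iterate_succ_apply] at this
      refine this.trans (le_of_eq ?_)
      ring) t
  have h4 : nrm t / ((2:ℝ) ^ κ)⁻¹ = 2 ^ κ * nrm t := by
    rw [div_inv_eq_mul, mul_comm]
  have h5 : (1:ℝ) / ((2:ℝ) ^ κ)⁻¹ = 2 ^ κ := by
    rw [one_div, inv_inv]
  rw [h4, h5] at h
  refine h.trans (le_of_eq ?_)
  push_cast
  field_simp
  ring

/-- the kernel identity -/
theorem S_mt (κ : ℕ) (N : ℤ) (t : X K) :
    (1 - ch (-1) t) * S (mt κ N) t = ch (N - 4) t + S (D (th κ (N / 2 ^ κ))) t := by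
  have h1 := S_D (mt_supp κ N) t
  have h2 : D (mt κ N) = fun ξ => D (th 0 N) ξ - D (th κ (N / 2 ^ κ)) ξ := by
    funext ξ
    simp only [D_apply, mt]
    ring
  rw [h2, S_sub (D_th0_supp N) (D_thk_supp κ _), S_D_th0] at h1
  linear_combination h1

/-- the kernel of the truncated tile sum against the sharply truncated kernel -/
theorem kernel_diff {κ : ℕ} {N : ℤ} (h0 : 5 * 2 ^ κ ≤ N) (h1 : N ≤ 2 ^ K) (t : X K) :
    ‖ker (mt κ N) t - ch N t * HK κ t‖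
      ≤ 4 + (40 + 12 * B0) * 2 ^ κ * (1 + 2 ^ κ * nrm t)⁻¹ ^ 2 := by
  have hB := B0_one
  have hb := div_bounds κ N
  have h1z : (1:ℤ) ≤ 2 ^ κ := one_le_pow₀ (by norm_num)
  have h2 : (0:ℝ) < 2 ^ κ := by positivity
  have hn := nrm_nonneg t
  rw [ker_eq_S (a := (N / 2 ^ κ - 4) * 2 ^ κ) (b := N - 3) (by nlinarith) (by linarith)
    (mt_supp κ N)]
  unfold HK
  by_cases hT : nrm t ≤ ((2:ℝ) ^ κ)⁻¹
  · rw [if_pos hT, mul_zero, sub_zero]
    have h3 := norm_S_le (K := K) (by nlinarith) (mt_supp κ N) (norm_mt_le κ N) t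
    have h4 : ((N - 3 - (N / 2 ^ κ - 4) * 2 ^ κ : ℤ) : ℝ) ≤ 5 * 2 ^ κ := by
      have h5 : (N - 3 - (N / 2 ^ κ - 4) * 2 ^ κ : ℤ) ≤ 5 * 2 ^ κ := by nlinarith
      exact_mod_cast h5
    have h6 : 2 ^ κ * nrm t ≤ 1 := by
      calc 2 ^ κ * nrm t ≤ 2 ^ κ * ((2:ℝ) ^ κ)⁻¹ := by gcongr
        _ = 1 := mul_inv_cancel₀ (ne_of_gt h2)
    have h7 : 1 / 4 ≤ (1 + 2 ^ κ * nrm t)⁻¹ ^ 2 := by
      have h8 : (1:ℝ) / 2 ≤ (1 + 2 ^ κ * nrm t)⁻¹ := by
        rw [one_div]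
        apply inv_anti₀ (by positivity)
        linarith
      nlinarith
    have h8 : 0 ≤ 2 ^ κ * (1 + 2 ^ κ * nrm t)⁻¹ ^ 2 := by positivity
    have h9 : (1 / 4) * 2 ^ κ ≤ 2 ^ κ * (1 + 2 ^ κ * nrm t)⁻¹ ^ 2 := by nlinarith
    have h10 : (0:ℝ) ≤ 12 * B0 * (2 ^ κ * (1 + 2 ^ κ * nrm t)⁻¹ ^ 2) := by positivity
    calc ‖S (mt κ N) t‖ ≤ ((N - 3 - (N / 2 ^ κ - 4) * 2 ^ κ : ℤ) : ℝ) * 2 := h3
      _ ≤ (5 * 2 ^ κ) * 2 := by gcongr
      _ ≤ 4 + (40 + 12 * B0) * 2 ^ κ * (1 + 2 ^ κ * nrm t)⁻¹ ^ 2 := by linarith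
  · rw [if_neg hT]
    push Not at hT
    have hT1 : 1 < 2 ^ κ * nrm t := by
      calc (1:ℝ) = 2 ^ κ * ((2:ℝ) ^ κ)⁻¹ := (mul_inv_cancel₀ (ne_of_gt h2)).symm
        _ < 2 ^ κ * nrm t := by gcongr
    have hpos : 0 < nrm t := lt_trans (by positivity) hT
    set z : ℂ := ch (-1) t with hz
    have hz1 : 4 * nrm t ≤ ‖1 - z‖ := by
      have h3 := ch_one_lower t
      rw [← ch_neg_one_norm, norm_sub_rev] at h3
      exact h3
    have hz0 : 1 - z ≠ 0 := by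
      intro h
      rw [h, norm_zero] at hz1
      linarith
    have hzn : ‖z‖ = 1 := norm_ch _ _
    have hch : ch (N - 4) t = ch N t * z ^ 4 := by
      have h4 : ch (-4) t = z ^ 4 := by
        have : (-4:ℤ) = -1 + -1 + -1 + -1 := by norm_num
        rw [this, ch_add, ch_add, ch_add, ← hz]
        ring
      rw [sub_eq_add_neg, ch_add, h4]
    have hS := S_mt κ N t
    rw [← hz, hch] at hS
    have hkey : S (mt κ N) t - ch N t * (1 / (1 - z))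
        = -(ch N t * (1 + z + z ^ 2 + z ^ 3)) + S (D (th κ (N / 2 ^ κ))) t / (1 - z) := by
      have h3 : S (mt κ N) t = (ch N t * z ^ 4 + S (D (th κ (N / 2 ^ κ))) t) / (1 - z) := by
        rw [eq_div_iff hz0, mul_comm]
        exact hS
      rw [h3]
      field_simp
      ring
    rw [hkey]
    have hA : ‖-(ch N t * (1 + z + z ^ 2 + z ^ 3))‖ ≤ 4 := by
      rw [norm_neg, norm_mul, norm_ch, one_mul]
      refine (norm_add_le _ _).trans ?_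
      have h3 : ‖z ^ 3‖ = 1 := by rw [norm_pow, hzn, one_pow]
      have h4 : ‖z ^ 2‖ = 1 := by rw [norm_pow, hzn, one_pow]
      have h5 : ‖1 + z + z ^ 2‖ ≤ 3 := by
        refine (norm_add_le _ _).trans ?_
        have h6 : ‖1 + z‖ ≤ 2 := by
          refine (norm_add_le _ _).trans ?_
          rw [norm_one, hzn]
          norm_num
        linarith
      linarith
    have hBd : ‖S (D (th κ (N / 2 ^ κ))) t / (1 - z)‖
        ≤ 12 * B0 * 2 ^ κ * (1 + 2 ^ κ * nrm t)⁻¹ ^ 2 := by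
      rw [norm_div]
      have h3 := S_D_thk_le κ (N / 2 ^ κ) t
      have h4 : (4:ℝ) * ((2:ℝ) ^ κ)⁻¹ ≤ ‖1 - z‖ := by
        refine le_trans ?_ hz1
        linarith
      rw [div_le_iff₀ (lt_of_lt_of_le (by positivity) h4)]
      calc ‖S (D (th κ (N / 2 ^ κ))) t‖ ≤ 24 * B0 * (1 + 2 ^ κ * nrm t)⁻¹ ^ 2 := h3
        _ ≤ 48 * B0 * (1 + 2 ^ κ * nrm t)⁻¹ ^ 2 := by
            have : 0 ≤ B0 * (1 + 2 ^ κ * nrm t)⁻¹ ^ 2 := by positivity
            linarith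
        _ = 12 * B0 * 2 ^ κ * (1 + 2 ^ κ * nrm t)⁻¹ ^ 2 * (4 * ((2:ℝ) ^ κ)⁻¹) := by
            field_simp
            ring
        _ ≤ 12 * B0 * 2 ^ κ * (1 + 2 ^ κ * nrm t)⁻¹ ^ 2 * ‖1 - z‖ := by gcongr
    refine (norm_add_le _ _).trans ?_
    have hC : 0 ≤ 2 ^ κ * (1 + 2 ^ κ * nrm t)⁻¹ ^ 2 := by positivity
    calc ‖-(ch N t * (1 + z + z ^ 2 + z ^ 3))‖ + ‖S (D (th κ (N / 2 ^ κ))) t / (1 - z)‖
        ≤ 4 + 12 * B0 * 2 ^ κ * (1 + 2 ^ κ * nrm t)⁻¹ ^ 2 := add_le_add hA hBd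
      _ ≤ _ := by linarith

/-- comparison of two convolutions: a kernel `≤ A + C 2^k (1 + 2^k |t|)^-2` costs `C M f` -/
theorem conv_diff_le {k : ℕ} (hk : k ≤ K) {A C : ℝ} (hA : 0 ≤ A) (hC : 0 ≤ C) {u : X K → ℂ}
    (hu : ∀ t, ‖u t‖ ≤ A + C * 2 ^ k * (1 + 2 ^ k * nrm t)⁻¹ ^ 2) (f : X K → ℂ) (x : X K) :
    ‖aveC (fun y => f y * u (x - y))‖ ≤ (A + 8 * C) * MX (fun y => ‖f y‖) x := by
  have h0 : ‖aveC (fun y => f y * u (x - y))‖ ≤ ave (fun y => ‖f y‖ * ‖u (x - y)‖) := by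
    unfold aveC ave
    rw [norm_div, norm_pow, Complex.norm_two]
    gcongr
    refine (norm_sum_le _ _).trans (le_of_eq ?_)
    exact Finset.sum_congr rfl fun y _ => norm_mul _ _
  refine h0.trans ?_
  have h1 : ave (fun y => ‖f y‖ * ‖u (x - y)‖)
      ≤ ave (fun y => A * |‖f y‖| + (C * 2 ^ k) * (|‖f y‖| * (1 + 2 ^ k * nrm (x - y))⁻¹ ^ 2)) := by
    refine ave_mono fun y => ?_
    rw [abs_norm]
    have := hu (x - y)
    calc ‖f y‖ * ‖u (x - y)‖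
        ≤ ‖f y‖ * (A + C * 2 ^ k * (1 + 2 ^ k * nrm (x - y))⁻¹ ^ 2) := by gcongr
      _ = _ := by ring
  refine h1.trans ?_
  have h2 : ave (fun y => A * |‖f y‖| + (C * 2 ^ k) * (|‖f y‖| * (1 + 2 ^ k * nrm (x - y))⁻¹ ^ 2))
      = A * ave (fun y => |‖f y‖|)
        + (C * 2 ^ k) * ave (fun y => |‖f y‖| * (1 + 2 ^ k * nrm (x - y))⁻¹ ^ 2) := by
    rw [← ave_mul_left, ← ave_mul_left]
    unfold ave
    rw [Finset.sum_add_distrib, add_div]
  rw [h2]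
  have h3 := ave_le_MX (fun y => ‖f y‖) x
  have h4 := conv_le_MX hk (fun y => ‖f y‖) x
  calc A * ave (fun y => |‖f y‖|)
        + (C * 2 ^ k) * ave (fun y => |‖f y‖| * (1 + 2 ^ k * nrm (x - y))⁻¹ ^ 2)
      = A * ave (fun y => |‖f y‖|)
        + C * (2 ^ k * ave (fun y => |‖f y‖| * (1 + 2 ^ k * nrm (x - y))⁻¹ ^ 2)) := by ring
    _ ≤ A * MX (fun y => ‖f y‖) x + C * (8 * MX (fun y => ‖f y‖) x) := by gcongr
    _ = _ := by ring

/-- TRUNC, multiplier form -/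
theorem trunc {κ : ℕ} {N : ℤ} (hκ : κ ≤ K) (h0 : 5 * 2 ^ κ ≤ N) (h1 : N ≤ 2 ^ K) (f : X K → ℂ)
    (x : X K) :
    ‖mul (mt κ N) f x - aveC (fun y => f y * (ch N (x - y) * HK κ (x - y)))‖
      ≤ (324 + 96 * B0) * MX (fun y => ‖f y‖) x := by
  have hB := B0_one
  rw [fou1 K (mt κ N) f x]
  have h2 : aveC (fun y => f y * ker (mt κ N) (x - y))
      - aveC (fun y => f y * (ch N (x - y) * HK κ (x - y)))
      = aveC (fun y => f y * (fun t => ker (mt κ N) t - ch N t * HK κ t) (x - y)) := by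
    unfold aveC
    rw [← sub_div, ← Finset.sum_sub_distrib]
    congr 1
    exact Finset.sum_congr rfl fun y _ => by ring
  rw [h2]
  have h3 := conv_diff_le hκ (A := 4) (C := 40 + 12 * B0) (by norm_num) (by positivity)
    (u := fun t => ker (mt κ N) t - ch N t * HK κ t) (kernel_diff h0 h1) f x
  refine h3.trans (le_of_eq ?_)
  ring

/-- TRUNC: the tile sum over the scales `k < κ` is the truncated Hilbert kernel modulated by `N` -/
theorem trunc_tiles {κ : ℕ} {N : ℤ} (hκ : κ + 2 ≤ K) (h0 : 5 * 2 ^ κ ≤ N) (h1 : N ≤ 2 ^ K)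
    (f : X K → ℂ) (x : X K) :
    ‖(∑ r ∈ range 8, ∑ k ∈ range κ, ∑ j ∈ range (2 ^ k),
        (8:ℂ)⁻¹ * (tl k j N).len * co bb r f (tl k j N) * pk rh r (tl k j N) x)
      - aveC (fun y => f y * (ch N (x - y) * HK κ (x - y)))‖
      ≤ (324 + 96 * B0) * MX (fun y => ‖f y‖) x := by
  rw [disc_trunc hκ f N x]
  exact trunc (by omega) h0 h1 f x

/-! ## two-sided partial sums, no hypothesis on `f` -/

/-- the difference of two smooth steps at the top scale -/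
theorem top_diff {κ : ℕ} (hκ : κ + 6 = K) {N N' : ℤ} (h : 2 ^ K ≤ 4 * N) (h' : 4 * N < 3 * 2 ^ K)
    (g : 2 ^ K ≤ 4 * N') (g' : 4 * N' < 3 * 2 ^ K) (f : X K → ℂ) (x : X K) :
    ‖mul (fun ξ => th κ (N / 2 ^ κ) ξ - th κ (N' / 2 ^ κ) ξ) f x‖
      ≤ 8 * (2 ^ 2 * (2 * 64 + 2) * (2 * B0 * 64)) * MX (fun y => ‖f y‖) x := by
  have hB := B0_one
  have hκ0 : (0:ℤ) < 2 ^ κ := by positivity
  have hK : (2:ℤ) ^ K = 64 * 2 ^ κ := by
    rw [← hκ, pow_add]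
    ring
  have hKR : (2:ℝ) ^ K = 64 * 2 ^ κ := by
    rw [← hκ, pow_add]
    ring
  have hb := div_bounds κ N
  have hb' := div_bounds κ N'
  have hl : 15 ≤ N / 2 ^ κ := by
    by_contra hc
    push Not at hc
    have : N / 2 ^ κ ≤ 14 := by linarith
    nlinarith
  have hl' : 15 ≤ N' / 2 ^ κ := by
    by_contra hc
    push Not at hc
    have : N' / 2 ^ κ ≤ 14 := by linarith
    nlinarith
  have hu : N / 2 ^ κ ≤ 48 := by
    by_contra hc
    push Not at hc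
    have : 49 ≤ N / 2 ^ κ := by linarith
    nlinarith
  have hu' : N' / 2 ^ κ ≤ 48 := by
    by_contra hc
    push Not at hc
    have : 49 ≤ N' / 2 ^ κ := by linarith
    nlinarith
  set m : ℤ → ℂ := fun ξ => th κ (N / 2 ^ κ) ξ - th κ (N' / 2 ^ κ) ξ with hm
  have hsupp : ∀ ξ, ξ < 0 ∨ 2 ^ K ≤ ξ → m ξ = 0 := by
    intro ξ hξ
    rw [hm]
    simp only
    rcases hξ with h | h
    · rw [thk_one (by nlinarith), thk_one (by nlinarith), sub_self]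
    · rw [thk_zero (by nlinarith), thk_zero (by nlinarith), sub_self]
  have hD : ∀ i ≤ 2, ∀ ξ, ‖D^[i] m ξ‖ ≤ 2 * B0 * (((2:ℝ) ^ κ)⁻¹) ^ i := by
    intro i hi ξ
    have h1 : m = th κ (N / 2 ^ κ) + (-1 : ℂ) • th κ (N' / 2 ^ κ) := by
      funext ξ
      simp only [hm, Pi.add_apply, Pi.smul_apply, smul_eq_mul]
      ring
    have h2 : D^[i] m ξ = D^[i] (th κ (N / 2 ^ κ)) ξ - D^[i] (th κ (N' / 2 ^ κ)) ξ := by
      rw [h1]
      have h3 := fwdDiff_iter_add (1:ℤ) (th κ (N / 2 ^ κ)) ((-1 : ℂ) • th κ (N' / 2 ^ κ)) i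
      have h4 := fwdDiff_iter_const_smul (1:ℤ) (-1 : ℂ) (th κ (N' / 2 ^ κ)) i
      have h5 : D^[i] (th κ (N / 2 ^ κ) + (-1 : ℂ) • th κ (N' / 2 ^ κ))
          = D^[i] (th κ (N / 2 ^ κ)) + (-1 : ℂ) • D^[i] (th κ (N' / 2 ^ κ)) := by
        rw [← h4]
        exact h3
      rw [h5]
      simp only [Pi.add_apply, Pi.smul_apply, smul_eq_mul]
      ring
    rw [h2]
    have h6 := th_diff κ (N / 2 ^ κ) (i := i) (by omega) ξ
    have h7 := th_diff κ (N' / 2 ^ κ) (i := i) (by omega) ξ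
    refine (norm_sub_le _ _).trans ((add_le_add h6 h7).trans (le_of_eq ?_))
    ring
  have h1R : (1:ℝ) ≤ 2 ^ κ := one_le_pow₀ (by norm_num)
  refine mul_le_MX (k := κ) (by omega) (by positivity) ?_ f x
  intro z
  have h8 := S_decay (K := K) 2 (g := m) (a := 0) (b := 2 ^ K) (by positivity) hsupp
    (M := 2 * B0) (h := ((2:ℝ) ^ κ)⁻¹) (R := 64) (by positivity)
    (by positivity) (inv_le_one_of_one_le₀ h1R)
    (by
      rw [div_inv_eq_mul]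
      push_cast
      linarith)
    (fun η => by simpa using hD 0 (by norm_num) η)
    (fun η => hD 2 le_rfl η) z
  rw [ker_eq_S le_rfl le_rfl hsupp]
  have h4 : nrm z / ((2:ℝ) ^ κ)⁻¹ = 2 ^ κ * nrm z := by
    rw [div_inv_eq_mul, mul_comm]
  have h5 : (1:ℝ) / ((2:ℝ) ^ κ)⁻¹ = 2 ^ κ := by
    rw [one_div, inv_inv]
  rw [h4, h5] at h8
  have hnn : 0 ≤ 2 ^ κ * (1 + 2 ^ κ * nrm z)⁻¹ ^ 2 := by
    have := nrm_nonneg z
    positivity
  push_cast at h8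
  refine h8.trans ?_
  have : 2 ^ 2 * (2 * 64 + 2) * (2 * B0) * 2 ^ κ * (1 + 2 ^ κ * nrm z)⁻¹ ^ 2
      ≤ (2 ^ 2 * (2 * 64 + 2) * (2 * B0)) * 64 * (2 ^ κ * (1 + 2 ^ κ * nrm z)⁻¹ ^ 2) := by
    have h9 : (0:ℝ) ≤ (2 ^ 2 * (2 * 64 + 2) * (2 * B0)) * (2 ^ κ * (1 + 2 ^ κ * nrm z)⁻¹ ^ 2) := by
      positivity
    nlinarith
  refine this.trans (le_of_eq ?_)
  ring

/-- two-sided partial sums are differences of tile sums, up to `C M f`, for every `f` -/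
theorem two_sided (hK : 8 ≤ K) {N N' : ℤ} (h : 2 ^ K ≤ 4 * N) (h' : 4 * N < 3 * 2 ^ K)
    (g : 2 ^ K ≤ 4 * N') (g' : 4 * N' < 3 * 2 ^ K) (f : X K → ℂ) (x : X K) :
    ‖(CN N f x - CN N' f x) - (mul (mt (K - 6) N) f x - mul (mt (K - 6) N') f x)‖
      ≤ (6 + 8 * (2 ^ 2 * (2 * 64 + 2) * (2 * B0 * 64))) * MX (fun y => ‖f y‖) x := by
  unfold CN
  have h2 : (mul (fun ξ => if ξ < N then (1:ℂ) else 0) f x
        - mul (fun ξ => if ξ < N' then (1:ℂ) else 0) f x)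
      - (mul (mt (K - 6) N) f x - mul (mt (K - 6) N') f x)
      = (mul (fun ξ => (if ξ < N then 1 else 0) - th 0 N ξ) f x
        - mul (fun ξ => (if ξ < N' then 1 else 0) - th 0 N' ξ) f x)
        + mul (fun ξ => th (K - 6) (N / 2 ^ (K - 6)) ξ - th (K - 6) (N' / 2 ^ (K - 6)) ξ) f x := by
    rw [← mul_sub, ← mul_sub, ← mul_sub, ← mul_sub, ← mul_add]
    congr 1
    funext ξ
    unfold mt
    ring
  rw [h2]
  have h3 := rem_low f N x
  have h3' := rem_low f N' x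
  have h4 := top_diff (K := K) (κ := K - 6) (by omega) h h' g g' f x
  have h5 : ave (fun y => ‖f y‖) ≤ MX (fun y => ‖f y‖) x := by
    have := ave_le_MX (fun y => ‖f y‖) x
    simpa using this
  have h6 := norm_add_le (mul (fun ξ => (if ξ < N then 1 else 0) - th 0 N ξ) f x
        - mul (fun ξ => (if ξ < N' then 1 else 0) - th 0 N' ξ) f x)
        (mul (fun ξ => th (K - 6) (N / 2 ^ (K - 6)) ξ - th (K - 6) (N' / 2 ^ (K - 6)) ξ) f x)
  have h7 := norm_sub_le (mul (fun ξ => (if ξ < N then 1 else 0) - th 0 N ξ) f x)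
        (mul (fun ξ => (if ξ < N' then 1 else 0) - th 0 N' ξ) f x)
  rw [add_mul]
  linarith

/-- the symmetric partial sum of `f`, by modulation to the middle of the window -/
theorem sym_eq {N : ℕ} (hN : (N:ℤ) < 2 ^ (K - 1)) (hK : 1 ≤ K) (f : X K → ℂ) (x : X K) :
    ch (2 ^ (K - 1)) x * ∑ k ∈ Finset.Icc (-(N:ℤ)) N, fc f k * ch k x
      = CN (2 ^ (K - 1) + N + 1) (fun y => f y * ch (2 ^ (K - 1)) y) x
        - CN (2 ^ (K - 1) - N) (fun y => f y * ch (2 ^ (K - 1)) y) x := by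
  unfold CN mul
  have hpow : (2:ℤ) ^ K = 2 * 2 ^ (K - 1) := by
    rw [← pow_succ']
    congr 1
    omega
  have hfc : ∀ ξ : ℤ, fc (fun y : X K => f y * ch (2 ^ (K - 1)) y) ξ = fc f (ξ - 2 ^ (K - 1)) := by
    intro ξ
    unfold fc
    congr 1
    funext y
    have h1 : -(ξ - 2 ^ (K - 1)) = 2 ^ (K - 1) + -ξ := by ring
    rw [h1, ch_add]
    ring
  simp_rw [hfc]
  rw [← Finset.sum_sub_distrib]
  have h1 : ∀ ξ ∈ win K, ((if ξ < 2 ^ (K - 1) + (N:ℤ) + 1 then (1:ℂ) else 0)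
        * fc f (ξ - 2 ^ (K - 1)) * ch ξ x
      - (if ξ < 2 ^ (K - 1) - (N:ℤ) then (1:ℂ) else 0) * fc f (ξ - 2 ^ (K - 1)) * ch ξ x)
      = if ξ ∈ Finset.Icc (2 ^ (K - 1) - (N:ℤ)) (2 ^ (K - 1) + N) then
          fc f (ξ - 2 ^ (K - 1)) * ch ξ x else 0 := by
    intro ξ _
    by_cases ha : ξ < 2 ^ (K - 1) - (N:ℤ)
    · rw [if_pos ha, if_pos (by linarith [(Nat.cast_nonneg N : (0:ℤ) ≤ N)]), if_neg (by
        intro hc
        linarith [(Finset.mem_Icc.1 hc).1])]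
      ring
    · rw [if_neg ha]
      by_cases hb : ξ < 2 ^ (K - 1) + (N:ℤ) + 1
      · rw [if_pos hb, if_pos (Finset.mem_Icc.2 ⟨by linarith, by linarith⟩)]
        ring
      · rw [if_neg hb, if_neg (by
          intro hc
          linarith [(Finset.mem_Icc.1 hc).2])]
        ring
  rw [Finset.sum_congr rfl h1, ← Finset.sum_filter]
  have h2 : (win K).filter (fun ξ => ξ ∈ Finset.Icc (2 ^ (K - 1) - (N:ℤ)) (2 ^ (K - 1) + N))
      = Finset.Icc (2 ^ (K - 1) - (N:ℤ)) (2 ^ (K - 1) + N) := by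
    ext ξ
    rw [Finset.mem_filter]
    constructor
    · exact fun h => h.2
    · intro h
      refine ⟨?_, h⟩
      unfold win
      rw [Finset.mem_Icc] at h
      rw [Finset.mem_Ico]
      constructor <;> linarith [h.1, h.2]
  rw [h2, Finset.mul_sum]
  refine Finset.sum_bij (fun k _ => k + 2 ^ (K - 1)) ?_ ?_ ?_ ?_
  · intro k hk
    rw [Finset.mem_Icc] at hk ⊢
    constructor <;> linarith [hk.1, hk.2]
  · intro a _ b _ h
    simpa using h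
  · intro ξ hξ
    rw [Finset.mem_Icc] at hξ
    refine ⟨ξ - 2 ^ (K - 1), ?_, by ring⟩
    rw [Finset.mem_Icc]
    constructor <;> linarith [hξ.1, hξ.2]
  · intro k _
    rw [add_sub_cancel_right, ch_add]
    ring

end Vale.Agent.P091.CH.H847
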